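import Vale.Agent.P256.H230.Etale
import Vale.Agent.P256.H283.Herm

/-!
# P256, helper230: real and imaginary parts, second order Taylor expansion of Nash families
-/

open Filter Topology
open scoped ComplexConjugate

namespace Vale.Agent.P256.H230

open Vale.Agent.P256.H283

variable {s₀ : ℝ}

theorem NA_re {f : ℝ → ℂ} (hf : NA s₀ f) : NA s₀ fun s => ((f s).re : ℂ) := by
  have h1 := (hf.add hf.conj).mul (NA.const (s₀ := s₀) (1 / 2))
  refine h1.congr (Eventually.of_forall fun s => ?_)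
  rw [Complex.add_conj]
  push_cast
  ring

theorem NA_im {f : ℝ → ℂ} (hf : NA s₀ f) : NA s₀ fun s => ((f s).im : ℂ) := by
  have h1 := (hf.sub hf.conj).mul (NA.const (s₀ := s₀) (1 / (2 * Complex.I)))
  refine h1.congr (Eventually.of_forall fun s => ?_)
  rw [Complex.sub_conj]
  field_simp [Complex.I_ne_zero]
  push_cast
  ring

/-- division by `s - s₀` -/
theorem NA_div {f : ℝ → ℂ} (hf : NA s₀ f) (h0 : f s₀ = 0) :
    ∃ g : ℝ → ℂ, NA s₀ g ∧ ∀ᶠ s in 𝓝 s₀, f s = ((s - s₀ : ℝ) : ℂ) * g s := by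
  have hd := hf.an.differentiableAt.isBigO_sub
  obtain ⟨C, hC⟩ := hd.bound
  obtain ⟨g, hg, h1⟩ := hf.ord_div 1 C (by
    filter_upwards [hC.filter_mono nhdsWithin_le_nhds] with s hs
    rw [h0, sub_zero, Real.norm_eq_abs] at hs
    rwa [pow_one])
  exact ⟨g, hg, by simpa using h1⟩

/-- Taylor expansion of order two -/
theorem NA_taylor {f : ℝ → ℂ} (hf : NA s₀ f) :
    ∃ (a b : ℂ) (g : ℝ → ℂ), NA s₀ g ∧
      ∀ᶠ s in 𝓝 s₀, f s = a + ((s - s₀ : ℝ) : ℂ) * b + ((s - s₀ : ℝ) : ℂ) ^ 2 * g s := by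
  obtain ⟨g, hg, h1⟩ := NA_div (hf.sub (NA.const (f s₀))) (sub_self _)
  obtain ⟨k, hk, h2⟩ := NA_div (hg.sub (NA.const (g s₀))) (sub_self _)
  refine ⟨f s₀, g s₀, k, hk, ?_⟩
  filter_upwards [h1, h2] with s h3 h4
  have h5 : g s = g s₀ + ((s - s₀ : ℝ) : ℂ) * k s := by
    rw [← h4]
    ring
  have h6 : f s = f s₀ + ((s - s₀ : ℝ) : ℂ) * g s := by
    rw [← h3]
    ring
  rw [h6, h5]
  ring

/-- Taylor expansion of order two of a real function -/
theorem real_taylor {f : ℝ → ℝ} (hf : NA s₀ fun s => (f s : ℂ)) :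
    ∃ (a b : ℝ) (g : ℝ → ℝ), (NA s₀ fun s => (g s : ℂ)) ∧
      ∀ᶠ s in 𝓝 s₀, f s = a + (s - s₀) * b + (s - s₀) ^ 2 * g s := by
  obtain ⟨a, b, g, hg, h⟩ := NA_taylor hf
  refine ⟨a.re, b.re, fun s => (g s).re, NA_re hg, ?_⟩
  filter_upwards [h] with s hs
  have h1 := congrArg Complex.re hs
  have h2 : ((s - s₀ : ℝ) : ℂ) ^ 2 = (((s - s₀) ^ 2 : ℝ) : ℂ) := by push_cast; ring
  rw [h2, Complex.add_re, Complex.add_re, Complex.re_ofReal_mul, Complex.re_ofReal_mul,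
    Complex.ofReal_re] at h1
  exact h1

/-- Taylor expansion of order two of a matrix family -/
theorem NM_taylor {m n : Type*} [Finite m] [Finite n] {M : ℝ → Matrix m n ℂ} (hM : NM s₀ M) :
    ∃ (M0 M1 : Matrix m n ℂ) (H : ℝ → Matrix m n ℂ), NM s₀ H ∧
      ∀ᶠ s in 𝓝 s₀, M s = M0 + ((s - s₀ : ℝ) : ℂ) • M1 + ((s - s₀ : ℝ) : ℂ) ^ 2 • H s := by
  choose a b g hg h using fun i j => NA_taylor (hM i j)
  refine ⟨Matrix.of a, Matrix.of b, fun s => Matrix.of fun i j => g i j s, fun i j => hg i j, ?_⟩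
  have h1 : ∀ᶠ s in 𝓝 s₀, ∀ i j, M s i j =
      a i j + ((s - s₀ : ℝ) : ℂ) * b i j + ((s - s₀ : ℝ) : ℂ) ^ 2 * g i j s :=
    eventually_all.2 fun i => eventually_all.2 fun j => h i j
  filter_upwards [h1] with s hs
  ext i j
  rw [hs i j]
  simp [Matrix.add_apply, Matrix.smul_apply]

/-- Hermitian version: the coefficients are Hermitian -/
theorem NM_taylor_herm {n : Type*} [Finite n] {M : ℝ → Matrix n n ℂ} (hM : NM s₀ M)
    (hh : ∀ᶠ s in 𝓝 s₀, (M s).IsHermitian) :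
    ∃ (M0 M1 : Matrix n n ℂ) (H : ℝ → Matrix n n ℂ), M0.IsHermitian ∧ M1.IsHermitian ∧
      (∀ s, (H s).IsHermitian) ∧ NM s₀ H ∧
      ∀ᶠ s in 𝓝 s₀, M s = M0 + ((s - s₀ : ℝ) : ℂ) • M1 + ((s - s₀ : ℝ) : ℂ) ^ 2 • H s := by
  obtain ⟨M0, M1, H, hH, h⟩ := NM_taylor hM
  refine ⟨(1 / 2 : ℂ) • (M0 + M0.conjTranspose), (1 / 2 : ℂ) • (M1 + M1.conjTranspose),
    fun s => (1 / 2 : ℂ) • (H s + (H s).conjTranspose), ?_, ?_, ?_, ?_, ?_⟩
  · rw [Matrix.IsHermitian, Matrix.conjTranspose_smul, Matrix.conjTranspose_add,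
      Matrix.conjTranspose_conjTranspose, add_comm]
    simp
  · rw [Matrix.IsHermitian, Matrix.conjTranspose_smul, Matrix.conjTranspose_add,
      Matrix.conjTranspose_conjTranspose, add_comm]
    simp
  · intro s
    rw [Matrix.IsHermitian, Matrix.conjTranspose_smul, Matrix.conjTranspose_add,
      Matrix.conjTranspose_conjTranspose, add_comm]
    simp
  · exact NM.smul (NA.const _) (hH.add hH.ct)
  · filter_upwards [h, hh] with s h1 h2
    have h3 : M s = (1 / 2 : ℂ) • (M s + (M s).conjTranspose) := by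
      rw [h2, ← two_smul ℂ (M s), smul_smul]
      norm_num
    rw [h3, h1]
    ext i j
    simp only [Matrix.smul_apply, Matrix.add_apply, Matrix.conjTranspose_apply, smul_eq_mul,
      star_add, star_mul', RCLike.star_def, map_pow, Complex.conj_ofReal]
    ring

end Vale.Agent.P256.H230
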