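import Vale.Agent.P256.H230.Germ

/-!
# P256, helper230: polynomials over the field of germs and families of polynomials
-/

open Filter Topology Polynomial

namespace Vale.Agent.P256.H230

open Vale.Agent.P267.H823

/-- map a germ by a ring homomorphism -/
noncomputable def gmap {R S : Type*} [CommRing R] [CommRing S] (f : R →+* S) :
    Germ l0 R →+* Germ l0 S where
  toFun := Germ.map f
  map_one' := by
    change (((f ∘ fun _ => (1 : R)) : ℂ → S) : Germ l0 S) = _
    have : (f ∘ fun _ => (1 : R)) = (1 : ℂ → S) := by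
      funext z
      exact map_one f
    rw [this]
    rfl
  map_mul' a b := by
    induction a using Germ.inductionOn with | _ a => ?_
    induction b using Germ.inductionOn with | _ b => ?_
    change (((f ∘ (a * b)) : ℂ → S) : Germ l0 S) = (((f ∘ a) * (f ∘ b) : ℂ → S) : Germ l0 S)
    congr 1
    funext z
    exact map_mul f _ _
  map_zero' := by
    change (((f ∘ fun _ => (0 : R)) : ℂ → S) : Germ l0 S) = _
    have : (f ∘ fun _ => (0 : R)) = (0 : ℂ → S) := by
      funext z
      exact map_zero f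
    rw [this]
    rfl
  map_add' a b := by
    induction a using Germ.inductionOn with | _ a => ?_
    induction b using Germ.inductionOn with | _ b => ?_
    change (((f ∘ (a + b)) : ℂ → S) : Germ l0 S) = (((f ∘ a) + (f ∘ b) : ℂ → S) : Germ l0 S)
    congr 1
    funext z
    exact map_add f _ _

theorem gmap_coe {R S : Type*} [CommRing R] [CommRing S] (f : R →+* S) (a : ℂ → R) :
    gmap f (a : Germ l0 R) = ((fun z => f (a z) : ℂ → S) : Germ l0 S) := rfl

/-- the inclusion of the field of germs -/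
noncomputable def inc : MG →+* Germ l0 ℂ := merSubring.subtype

theorem inc_eq (φ : MG) : inc φ = ((φ.rep : ℂ → ℂ) : Germ l0 ℂ) := φ.coe_rep.symm

/-- polynomials over the field as germs of polynomials -/
noncomputable def Phi : MG[X] →+* Germ l0 ℂ[X] :=
  eval₂RingHom ((gmap (C : ℂ →+* ℂ[X])).comp inc) ((fun _ => (X : ℂ[X]) : ℂ → ℂ[X]) : Germ l0 ℂ[X])

/-- the family `W` represents `P` -/
def Rep (P : MG[X]) (W : ℂ → ℂ[X]) : Prop :=
  ∀ᶠ z in l0, ∀ i, (W z).coeff i = (P.coeff i).rep z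

/-- the standard representative -/
noncomputable def sp (P : MG[X]) : ℂ → ℂ[X] := fun z =>
  ∑ i ∈ Finset.range (P.natDegree + 1), C ((P.coeff i).rep z) * X ^ i

theorem eventually_coeff {p : MG → ℂ → Prop} (hp : ∀ φ, ∀ᶠ z in l0, p φ z) (P : MG[X]) :
    ∀ᶠ z in l0, ∀ i, p (P.coeff i) z := by
  have h1 : ∀ᶠ z in l0, ∀ i ∈ Finset.range (P.natDegree + 1), p (P.coeff i) z :=
    (Finset.eventually_all _).2 fun i _ => hp _
  filter_upwards [h1, hp 0] with z h2 h3 i
  by_cases hi : i < P.natDegree + 1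
  · exact h2 i (Finset.mem_range.2 hi)
  · rw [coeff_eq_zero_of_natDegree_lt (by omega)]
    exact h3

theorem rep_sp (P : MG[X]) : Rep P (sp P) := by
  filter_upwards [MG.rep_zero] with z hz i
  rw [sp, finsetSum_coeff]
  simp only [coeff_C_mul_X_pow]
  rw [Finset.sum_ite_eq]
  split_ifs with h
  · rfl
  · rw [coeff_eq_zero_of_natDegree_lt (by rw [Finset.mem_range] at h; omega), hz]
    rfl

theorem Rep.eq {P : MG[X]} {W W' : ℂ → ℂ[X]} (h : Rep P W) (h' : Rep P W') : W =ᶠ[l0] W' := by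
  filter_upwards [h, h'] with z h1 h2
  ext i
  rw [h1, h2]

theorem Rep.congr {P : MG[X]} {W W' : ℂ → ℂ[X]} (h : Rep P W) (h' : W =ᶠ[l0] W') : Rep P W' := by
  filter_upwards [h, h'] with z h1 h2 i
  rw [← h2, h1]

theorem Phi_sp (P : MG[X]) : Phi P = ((sp P : ℂ → ℂ[X]) : Germ l0 ℂ[X]) := by
  have h1 : ∀ (f : ℕ → ℂ → ℂ[X]) (s : Finset ℕ),
      (((fun z => ∑ i ∈ s, f i z) : ℂ → ℂ[X]) : Germ l0 ℂ[X]) = ∑ i ∈ s, (f i : Germ l0 ℂ[X]) := by
    intro f s
    have := map_sum (Germ.coeRingHom (R := ℂ[X]) l0) f s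
    rw [Germ.coe_coeRingHom] at this
    rw [← this]
    congr 1
    funext z
    rw [Finset.sum_apply]
  rw [Phi, coe_eval₂RingHom, eval₂_eq_sum_range]
  unfold sp
  rw [h1]
  refine Finset.sum_congr rfl fun i _ => ?_
  rw [RingHom.comp_apply, inc_eq, gmap_coe]
  rfl

theorem rep_iff {P : MG[X]} {W : ℂ → ℂ[X]} : Rep P W ↔ Phi P = (W : Germ l0 ℂ[X]) := by
  constructor
  · intro h
    rw [Phi_sp]
    exact Germ.coe_eq.2 ((rep_sp P).eq h)
  · intro h
    rw [Phi_sp] at h
    exact (rep_sp P).congr (Germ.coe_eq.1 h)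

theorem Rep.inj {P P' : MG[X]} {W : ℂ → ℂ[X]} (h : Rep P W) (h' : Rep P' W) : P = P' := by
  ext i
  refine MG.ext_rep ?_
  filter_upwards [h, h'] with z h1 h2
  rw [← h1, ← h2]

theorem Phi_injective : Function.Injective Phi := by
  intro P P' h
  have h1 : Rep P (sp P) := rep_sp P
  have h2 : Rep P' (sp P) := rep_iff.2 (by rw [← h, Phi_sp])
  exact h1.inj h2

theorem Rep.mul {P P' : MG[X]} {W W' : ℂ → ℂ[X]} (h : Rep P W) (h' : Rep P' W') :
    Rep (P * P') (fun z => W z * W' z) := by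
  rw [rep_iff] at *
  rw [map_mul, h, h']
  rfl

theorem Rep.add {P P' : MG[X]} {W W' : ℂ → ℂ[X]} (h : Rep P W) (h' : Rep P' W') :
    Rep (P + P') (fun z => W z + W' z) := by
  rw [rep_iff] at *
  rw [map_add, h, h']
  rfl

theorem Rep.star {P : MG[X]} {W : ℂ → ℂ[X]} (h : Rep P W) :
    Rep (star P) (fun z => (W (star z)).map (starRingEnd ℂ)) := by
  have h1 := eventually_coeff (p := fun φ z => (Star.star φ).rep z = cstar φ.rep z)
    (fun φ => MG.rep_star φ) P
  filter_upwards [h1, tendsto_star_l0.eventually h] with z h2 h3 i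
  rw [coeff_star, h2, coeff_map, h3]
  rfl

theorem rep_C (φ : MG) : Rep (C φ) (fun z => C (φ.rep z)) := by
  filter_upwards [MG.rep_zero] with z hz i
  rw [coeff_C, coeff_C]
  split_ifs
  · rfl
  · rw [hz]
    rfl

/-- a family with meromorphic coefficients comes from a polynomial -/
theorem exists_rep {W : ℂ → ℂ[X]} (h : ∀ i, MeromorphicAt (fun z => (W z).coeff i) 0) {e : ℕ}
    (he : ∀ᶠ z in l0, (W z).natDegree ≤ e) : ∃ P : MG[X], Rep P W ∧ P.natDegree ≤ e := by
  set P : MG[X] := ∑ i ∈ Finset.range (e + 1), C (MG.mk _ (h i)) * X ^ i with hP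
  have hc : ∀ i, P.coeff i = if i < e + 1 then MG.mk _ (h i) else 0 := by
    intro i
    rw [hP, finsetSum_coeff]
    simp only [coeff_C_mul_X_pow]
    rw [Finset.sum_ite_eq]
    simp only [Finset.mem_range]
  refine ⟨P, ?_, ?_⟩
  · have h1 : ∀ᶠ z in l0, ∀ i ∈ Finset.range (e + 1), (MG.mk _ (h i)).rep z = (W z).coeff i :=
      (Finset.eventually_all _).2 fun i _ => MG.rep_mk (h i)
    filter_upwards [h1, he, MG.rep_zero] with z h2 h3 h4 i
    rw [hc]
    split_ifs with h5
    · rw [h2 i (Finset.mem_range.2 h5)]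
    · rw [h4, coeff_eq_zero_of_natDegree_lt (by omega)]
      rfl
  · rw [natDegree_le_iff_coeff_eq_zero]
    intro k hk
    rw [hc, if_neg (by omega)]

end Vale.Agent.P256.H230
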