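import Vale.Agent.P256.H230.Toug
import Vale.Agent.P256.H283.Alg
import Vale.Agent.P256.H387.Lift

/-!
# P256, helper230: etale coordinates for families of real Nash functions
-/

open Filter Topology Polynomial

namespace Vale.Agent.P256.H230

open Vale.Agent.P256.H283 (NA)
open Vale.Agent.P256.H387 (Jt)

/-! ### Real coefficients -/

/-- apply a real linear functional to the coefficients -/
noncomputable def rp (L : ℂ →ₗ[ℝ] ℝ) (P : ℂ[X]) : ℝ[X] :=
  ∑ i ∈ Finset.range (P.natDegree + 1), C (L (P.coeff i)) * X ^ i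

theorem coeff_rp (L : ℂ →ₗ[ℝ] ℝ) (P : ℂ[X]) (k : ℕ) : (rp L P).coeff k = L (P.coeff k) := by
  rw [rp, finsetSum_coeff]
  simp only [coeff_C_mul_X_pow]
  rw [Finset.sum_ite_eq]
  simp only [Finset.mem_range]
  split_ifs with h
  · rfl
  · rw [coeff_eq_zero_of_natDegree_lt (by omega), map_zero]

theorem eval_rp (L : ℂ →ₗ[ℝ] ℝ) (P : ℂ[X]) (u : ℝ) : (rp L P).eval u = L (P.eval (u : ℂ)) := by
  rw [rp, eval_eq_sum_range (p := P), map_sum, eval_finsetSum]
  refine Finset.sum_congr rfl fun i _ => ?_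
  have h1 : P.coeff i * (u : ℂ) ^ i = (u ^ i : ℝ) • P.coeff i := by
    rw [Complex.real_smul]
    push_cast
    ring
  rw [h1, map_smul, smul_eq_mul, eval_mul, eval_C, eval_pow, eval_X, mul_comm]

/-- the bivariate version -/
noncomputable def rp2 (L : ℂ →ₗ[ℝ] ℝ) (P : ℂ[X][X]) : ℝ[X][X] :=
  ∑ i ∈ Finset.range (P.natDegree + 1), C (rp L (P.coeff i)) * X ^ i

theorem rp_zero (L : ℂ →ₗ[ℝ] ℝ) : rp L 0 = 0 := by
  ext k
  rw [coeff_rp, coeff_zero, map_zero, coeff_zero]

theorem coeff_rp2 (L : ℂ →ₗ[ℝ] ℝ) (P : ℂ[X][X]) (k : ℕ) :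
    (rp2 L P).coeff k = rp L (P.coeff k) := by
  rw [rp2, finsetSum_coeff]
  simp only [coeff_C_mul_X_pow]
  rw [Finset.sum_ite_eq]
  simp only [Finset.mem_range]
  split_ifs with h
  · rfl
  · rw [coeff_eq_zero_of_natDegree_lt (p := P) (by omega), rp_zero]

theorem ev2_rp2 (L : ℂ →ₗ[ℝ] ℝ) (P : ℂ[X][X]) (s y : ℝ) :
    ev2 (rp2 L P) s y = L ((P.map (evalRingHom (s : ℂ))).eval (y : ℂ)) := by
  rw [eval_eq_sum_range' (Nat.lt_succ_of_le natDegree_map_le), map_sum, ev2, rp2,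
    Polynomial.map_sum, eval_finsetSum]
  refine Finset.sum_congr rfl fun i _ => ?_
  rw [Polynomial.map_mul, map_C, Polynomial.map_pow, map_X, eval_mul, eval_C, eval_pow, eval_X,
    coe_evalRingHom, eval_rp, coeff_map, coe_evalRingHom]
  have h1 : (P.coeff i).eval (s : ℂ) * (y : ℂ) ^ i = (y ^ i : ℝ) • (P.coeff i).eval (s : ℂ) := by
    rw [Complex.real_smul]
    push_cast
    ring
  rw [h1, map_smul, smul_eq_mul, mul_comm]

theorem exists_real_eq {s₀ : ℝ} {g : ℝ → ℝ} (hg : H283.Alg s₀ fun s => (g s : ℂ)) :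
    ∃ P : ℝ[X][X], P ≠ 0 ∧ ∀ᶠ s in 𝓝[≠] s₀, ev2 P s (g s) = 0 := by
  obtain ⟨P, hP, h⟩ := hg
  have key : ∀ L : ℂ →ₗ[ℝ] ℝ, ∀ᶠ s in 𝓝[≠] s₀, ev2 (rp2 L P) s (g s) = 0 := by
    intro L
    filter_upwards [h] with s hs
    rw [ev2_rp2, hs, map_zero]
  by_cases h1 : rp2 Complex.reLm P = 0
  · refine ⟨rp2 Complex.imLm P, fun h2 => hP ?_, key _⟩
    ext i j
    have e1 := congrArg (fun Q : ℝ[X][X] => (Q.coeff i).coeff j) h1
    have e2 := congrArg (fun Q : ℝ[X][X] => (Q.coeff i).coeff j) h2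
    simp only [coeff_rp2, coeff_rp, coeff_zero] at e1 e2
    rw [coeff_zero, coeff_zero]
    exact Complex.ext e1 e2
  · exact ⟨_, h1, key _⟩

/-- translation of the base point -/
noncomputable def shift (s₀ : ℝ) : ℝ[X][X] →+* ℝ[X][X] := mapRingHom (compRingHom (X + C s₀))

theorem ev2_shift (s₀ : ℝ) (P : ℝ[X][X]) (s y : ℝ) : ev2 (shift s₀ P) s y = ev2 P (s + s₀) y := by
  have h1 : (evalRingHom s).comp (compRingHom (X + C s₀) : ℝ[X] →+* ℝ[X]) = evalRingHom (s + s₀) := by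
    refine RingHom.ext fun q => ?_
    rw [RingHom.comp_apply, coe_evalRingHom, coe_evalRingHom, coe_compRingHom_apply, eval_comp]
    simp
  rw [ev2, ev2, shift, coe_mapRingHom, Polynomial.map_map, h1]

theorem shift_ne_zero {s₀ : ℝ} {P : ℝ[X][X]} (hP : P ≠ 0) : shift s₀ P ≠ 0 := by
  intro h0
  apply hP
  have hinj : Function.Injective (compRingHom (X + C s₀) : ℝ[X] →+* ℝ[X]) := by
    intro p q h
    have h1 := congrArg (fun r : ℝ[X] => r.comp (X - C s₀)) h
    simpa [comp_assoc] using h1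
  exact (Polynomial.map_eq_zero_iff hinj).1 h0

/-- **Etale coordinate of one real Nash function.** -/
theorem etale_one {s₀ : ℝ} {g : ℝ → ℝ} (hg : NA s₀ fun s => (g s : ℂ)) :
    ∃ (N : ℕ) (T : ℝ[X]) (h : ℝ → ℝ) (Q : ℝ[X][X]), AnalyticAt ℝ h s₀ ∧
      (∀ s, g s = T.eval s + (s - s₀) ^ N * h s) ∧ (∀ᶠ s in 𝓝 s₀, ev2 Q s (h s) = 0) ∧
      ev2 (derivative Q) s₀ (h s₀) ≠ 0 := by
  have hgan : AnalyticAt ℝ g s₀ := by
    have h1 := (Complex.reCLM.analyticAt _).comp hg.an
    exact h1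
  have hadd : AnalyticAt ℝ (fun r : ℝ => r + s₀) 0 := analyticAt_id.add analyticAt_const
  have hsub : AnalyticAt ℝ (fun r : ℝ => r - s₀) s₀ := analyticAt_id.sub analyticAt_const
  have hg0 : AnalyticAt ℝ (fun r => g (r + s₀)) 0 :=
    AnalyticAt.comp_of_eq hgan hadd (by simp)
  obtain ⟨P, hP, hPe⟩ := exists_real_eq hg.alg
  have ht : Tendsto (fun r : ℝ => r + s₀) (𝓝[≠] 0) (𝓝[≠] s₀) := by
    refine tendsto_nhdsWithin_iff.2 ⟨?_, ?_⟩
    · have h1 : Tendsto (fun r : ℝ => r + s₀) (𝓝 0) (𝓝 (0 + s₀)) := hadd.continuousAt.tendsto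
      rw [zero_add] at h1
      exact h1.mono_left nhdsWithin_le_nhds
    · filter_upwards [self_mem_nhdsWithin] with r hr
      intro h
      apply hr
      simpa using h
  have hev : ∀ᶠ r in 𝓝 (0 : ℝ), ev2 (shift s₀ P) r (g (r + s₀)) = 0 := by
    refine ((analyticAt_ev2 (shift s₀ P) hg0).frequently_zero_iff_eventually_zero).1 ?_
    refine Filter.Eventually.frequently ?_
    filter_upwards [ht.eventually hPe] with r hr
    rw [ev2_shift]
    exact hr
  obtain ⟨N, T, hh, Q, h1, h2, h3, h4⟩ := tougeron hg0 ⟨_, shift_ne_zero hP, hev⟩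
  have ht' : Tendsto (fun r : ℝ => r - s₀) (𝓝 s₀) (𝓝 0) := by
    have h1 : Tendsto (fun r : ℝ => r - s₀) (𝓝 s₀) (𝓝 (s₀ - s₀)) := hsub.continuousAt.tendsto
    rwa [sub_self] at h1
  refine ⟨N, T.comp (X - C s₀), fun s => hh (s - s₀), shift (-s₀) Q, ?_, ?_, ?_, ?_⟩
  · exact AnalyticAt.comp_of_eq h1 hsub (by simp)
  · intro s
    have := h2 (s - s₀)
    rw [sub_add_cancel] at this
    rw [this, eval_comp]
    simp
  · filter_upwards [ht'.eventually h3] with s hs
    rw [ev2_shift, ← sub_eq_add_neg]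
    exact hs
  · have h5 : derivative (shift (-s₀) Q) = shift (-s₀) (derivative Q) := by
      rw [shift, coe_mapRingHom, derivative_map]
    rw [h5, ev2_shift]
    change ev2 (derivative Q) (s₀ + -s₀) (hh (s₀ - s₀)) ≠ 0
    rw [sub_self, add_neg_cancel]
    exact h4

/-! ### Multivariate form -/

section mv

variable {τ : Type*}

/-- a bivariate polynomial in the variables `s` and `t` -/
noncomputable def toMv (t : τ) : ℝ[X][X] →+* MvPolynomial (Unit ⊕ τ) ℝ :=
  eval₂RingHom (eval₂RingHom MvPolynomial.C (MvPolynomial.X (Sum.inl ())))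
    (MvPolynomial.X (Sum.inr t))

theorem eval_toMv (t : τ) (Q : ℝ[X][X]) (z : Unit ⊕ τ → ℝ) :
    MvPolynomial.eval z (toMv t Q) = ev2 Q (z (Sum.inl ())) (z (Sum.inr t)) := by
  have h1 : (MvPolynomial.eval z).comp (toMv t) =
      (evalRingHom (z (Sum.inr t))).comp (mapRingHom (evalRingHom (z (Sum.inl ())))) := by
    ext <;> simp [toMv]
  exact congrArg (fun f : ℝ[X][X] →+* ℝ => f Q) h1

theorem pderiv_toMv_C (t t' : τ) (q : ℝ[X]) :
    MvPolynomial.pderiv (Sum.inr t') (toMv t (C q)) = 0 := by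
  classical
  induction q using Polynomial.induction_on' with
  | add p q hp hq => rw [C_add, map_add, map_add, hp, hq, add_zero]
  | monomial n a =>
    have h1 : toMv t (C (monomial n a)) =
        MvPolynomial.C a * MvPolynomial.X (Sum.inl ()) ^ n := by
      simp [toMv, eval₂_monomial]
    rw [h1, MvPolynomial.pderiv_C_mul, Derivation.leibniz_pow,
      MvPolynomial.pderiv_X_of_ne (by simp)]
    simp

theorem eval_pderiv_toMv [DecidableEq τ] (t t' : τ) (Q : ℝ[X][X]) (z : Unit ⊕ τ → ℝ) :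
    MvPolynomial.eval z (MvPolynomial.pderiv (Sum.inr t') (toMv t Q)) =
      if t' = t then ev2 (derivative Q) (z (Sum.inl ())) (z (Sum.inr t)) else 0 := by
  induction Q using Polynomial.induction_on' with
  | add p q hp hq =>
    rw [map_add, map_add, map_add, hp, hq]
    split_ifs
    · simp [ev2, Polynomial.map_add, eval_add]
    · simp
  | monomial n a =>
    have h1 : toMv t (monomial n a) = toMv t (C a) * MvPolynomial.X (Sum.inr t) ^ n := by
      rw [← C_mul_X_pow_eq_monomial, map_mul, map_pow]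
      simp [toMv]
    rw [h1, Derivation.leibniz, pderiv_toMv_C, smul_zero, add_zero, Derivation.leibniz_pow,
      smul_eq_mul, map_mul, eval_toMv, ev2_C]
    split_ifs with h
    · subst h
      rw [MvPolynomial.pderiv_X_self, derivative_monomial, ev2, map_monomial, eval_monomial]
      simp
      ring
    · rw [MvPolynomial.pderiv_X_of_ne (by simpa using fun h' => h h'.symm)]
      simp

variable [Fintype τ] [DecidableEq τ]

/-- the lifted point -/
def pt (h : τ → ℝ → ℝ) (s : ℝ) : Unit ⊕ τ → ℝ := Sum.elim (fun _ => s) fun t => h t s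

/-- **Etale coordinates for a finite family of real Nash functions.** -/
theorem etale_family {s₀ : ℝ} (g : τ → ℝ → ℝ) (hg : ∀ t, NA s₀ fun s => (g t s : ℂ)) :
    ∃ (h : τ → ℝ → ℝ) (P E : τ → MvPolynomial (Unit ⊕ τ) ℝ),
      (∀ t, AnalyticAt ℝ (h t) s₀) ∧
      (∀ᶠ s in 𝓝 s₀, ∀ t, MvPolynomial.eval (pt h s) (P t) = 0) ∧
      (Jt P (pt h s₀)).det ≠ 0 ∧
      ∀ t s, g t s = MvPolynomial.eval (pt h s) (E t) := by
  choose N T h Q h1 h2 h3 h4 using fun t => etale_one (hg t)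
  refine ⟨h, fun t => toMv t (Q t), fun t => toMv t (C (T t) + C ((X - C s₀) ^ N t) * X), h1, ?_,
    ?_, ?_⟩
  · filter_upwards [Filter.eventually_all.2 h3] with s hs t
    rw [eval_toMv]
    exact hs t
  · have e1 : Jt (fun t => toMv t (Q t)) (pt h s₀) =
        Matrix.diagonal fun t => ev2 (derivative (Q t)) s₀ (h t s₀) := by
      ext i j
      rw [Jt, Matrix.of_apply, eval_pderiv_toMv, Matrix.diagonal_apply]
      by_cases hij : i = j
      · subst hij
        simp [pt]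
      · rw [if_neg (fun h => hij h.symm), if_neg hij]
    rw [e1, Matrix.det_diagonal]
    exact Finset.prod_ne_zero_iff.2 fun t _ => h4 t
  · intro t s
    rw [eval_toMv, h2]
    simp [ev2, pt]

end mv

end Vale.Agent.P256.H230
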