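import Mathlib

/-!
# P256, helper230: matrix Fejer-Riesz over a field with involution (abstract form)

`R` is a commutative domain with involution.  `NormPsd B`: every value `v^* B v` is a norm `w w^*`.
-/

open Matrix Polynomial

namespace Vale.Agent.P256.H230

section ring

variable {R : Type*} [CommRing R] [IsDomain R] [StarRing R]
variable {n : Type*} [Fintype n] [DecidableEq n]

/-- The norm form is anisotropic. -/
def Aniso (R : Type*) [CommRing R] [StarRing R] : Prop :=
  ∀ (d : ℕ) (a : Fin d → R), ∑ i, a i * star (a i) = 0 → ∀ i, a i = 0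

/-- Sums of two norms are norms. -/
def SumNorm (R : Type*) [CommRing R] [StarRing R] : Prop :=
  ∀ a b : R, ∃ c : R, a * star a + b * star b = c * star c

/-- all values of the Hermitian form are norms -/
def NormPsd (B : Matrix n n R) : Prop :=
  ∀ v : n → R, ∃ w : R, star v ⬝ᵥ (B *ᵥ v) = w * star w

omit [IsDomain R] in
theorem Aniso.two (h : Aniso R) {a b : R} (hab : a * star a + b * star b = 0) :
    a = 0 ∧ b = 0 := by
  have h1 := h 2 ![a, b] (by simpa [Fin.sum_univ_two] using hab)
  exact ⟨by simpa using h1 0, by simpa using h1 1⟩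

omit [IsDomain R] in
theorem Aniso.of_fintype (h : Aniso R) {ι : Type*} [Fintype ι] (a : ι → R)
    (ha : ∑ i, a i * star (a i) = 0) (i : ι) : a i = 0 := by
  classical
  have e := Fintype.equivFin ι
  have h1 := h (Fintype.card ι) (fun j => a (e.symm j)) (by
    rw [← ha]
    exact e.symm.sum_comp fun i => a i * star (a i))
  have h2 := h1 (e i)
  simpa using h2

omit [IsDomain R] in
theorem SumNorm.sum (h : SumNorm R) {ι : Type*} (s : Finset ι) (a : ι → R) :
    ∃ c : R, ∑ i ∈ s, a i * star (a i) = c * star c := by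
  classical
  induction s using Finset.induction_on with
  | empty => exact ⟨0, by simp⟩
  | insert i s hi ih =>
    obtain ⟨c, hc⟩ := ih
    obtain ⟨d, hd⟩ := h (a i) c
    exact ⟨d, by rw [Finset.sum_insert hi, hc, hd]⟩

omit [IsDomain R] [DecidableEq n] in
theorem form_conj (B P : Matrix n n R) (v : n → R) :
    star v ⬝ᵥ ((Pᴴ * B * P) *ᵥ v) = star (P *ᵥ v) ⬝ᵥ (B *ᵥ (P *ᵥ v)) := by
  rw [star_mulVec, ← mulVec_mulVec, ← mulVec_mulVec, dotProduct_mulVec (star v)]

omit [IsDomain R] [DecidableEq n] in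
theorem form_conj2 (B P : Matrix n n R) (v w : n → R) :
    star v ⬝ᵥ ((Pᴴ * B * P) *ᵥ w) = star (P *ᵥ v) ⬝ᵥ (B *ᵥ (P *ᵥ w)) := by
  rw [star_mulVec, ← mulVec_mulVec, ← mulVec_mulVec, dotProduct_mulVec (star v)]

omit [IsDomain R] [DecidableEq n] in
theorem NormPsd.conj {B : Matrix n n R} (h : NormPsd B) (P : Matrix n n R) :
    NormPsd (Pᴴ * B * P) := by
  intro v
  rw [form_conj]
  exact h _

omit [IsDomain R] [DecidableEq n] in
theorem form_star {B : Matrix n n R} (hB : Bᴴ = B) (v w : n → R) :
    star (star v ⬝ᵥ (B *ᵥ w)) = star w ⬝ᵥ (B *ᵥ v) := by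
  rw [star_dotProduct, star_star, star_mulVec, hB, dotProduct_mulVec, dotProduct_comm]

/-- In a norm-psd Hermitian form over an anisotropic domain, isotropic vectors are in the
kernel. -/
theorem NormPsd.ker (hA : Aniso R) {B : Matrix n n R} (hB : Bᴴ = B) (h : NormPsd B) {v : n → R}
    (hv : star v ⬝ᵥ (B *ᵥ v) = 0) : B *ᵥ v = 0 := by
  -- polarization with an arbitrary vector
  have hpol : ∀ (x : n → R) (γ δ : R), star (γ • v + δ • x) ⬝ᵥ (B *ᵥ (γ • v + δ • x)) =
      γ * star δ * (star x ⬝ᵥ (B *ᵥ v)) + star (γ * star δ * (star x ⬝ᵥ (B *ᵥ v))) +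
        δ * star δ * (star x ⬝ᵥ (B *ᵥ x)) := by
    intro x γ δ
    rw [mulVec_add, mulVec_smul, mulVec_smul, star_add, star_smul, star_smul, add_dotProduct,
      dotProduct_add, dotProduct_add]
    simp only [smul_dotProduct, dotProduct_smul, smul_eq_mul, hv, star_mul, star_star,
      form_star hB]
    ring
  ext j
  have hj : (B *ᵥ v) j = star (Pi.single j (1 : R)) ⬝ᵥ (B *ᵥ v) := by
    rw [star_dotProduct]
    simp
  rw [hj, Pi.zero_apply]
  set x : n → R := Pi.single j 1
  set b := star x ⬝ᵥ (B *ᵥ v) with hb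
  set β := star x ⬝ᵥ (B *ᵥ x) with hβ
  have hβs : star β = β := form_star hB x x
  by_contra hb0
  -- first step: `β = 0`
  have h1 : b * star b * β = 0 := by
    obtain ⟨w, hw⟩ := h ((-β) • v + b • x)
    obtain ⟨w', hw'⟩ := h (b • x)
    rw [hpol] at hw
    have e1 : star (b • x) ⬝ᵥ (B *ᵥ (b • x)) = b * star b * β := by
      rw [mulVec_smul, star_smul, smul_dotProduct, dotProduct_smul, smul_eq_mul, smul_eq_mul]
      ring
    rw [e1] at hw'
    simp only [star_mul, star_neg, star_star, hβs, ← hb] at hw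
    have h2 := hA.two (a := w) (b := w') (by
      rw [← hw, ← hw']
      ring)
    rw [hw', h2.2, zero_mul]
  have hβ0 : β = 0 := by
    rcases mul_eq_zero.1 h1 with h2 | h2
    · rcases mul_eq_zero.1 h2 with h3 | h3
      · exact absurd h3 hb0
      · exact absurd (star_eq_zero.1 h3) hb0
    · exact h2
  have h3 : ∀ ε : R, star ε = ε → ∃ w, ε * (b * star b + b * star b) = w * star w := by
    intro ε hε
    obtain ⟨w, hw⟩ := h ((ε * star b) • v + (1 : R) • x)
    rw [hpol, ← hβ, hβ0] at hw
    refine ⟨w, ?_⟩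
    rw [← hw]
    simp only [star_mul, star_one, star_star, hε, ← hb]
    ring
  obtain ⟨w1, hw1⟩ := h3 1 (star_one R)
  obtain ⟨w2, hw2⟩ := h3 (-1) (by simp)
  have h4 := hA.two (a := w1) (b := w2) (by rw [← hw1, ← hw2]; ring)
  rw [h4.1, zero_mul, one_mul] at hw1
  exact hb0 (hA.two hw1).1

theorem NormPsd.pd (hA : Aniso R) {B : Matrix n n R} (hB : Bᴴ = B) (h : NormPsd B)
    (hdet : B.det ≠ 0) {v : n → R} (hv : star v ⬝ᵥ (B *ᵥ v) = 0) : v = 0 := by
  by_contra hne
  exact hdet (exists_mulVec_eq_zero_iff.1 ⟨v, hne, h.ker hA hB hv⟩)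

omit [IsDomain R] in
theorem star_prime {π : R} (h : Prime π) : Prime (star π) := by
  have := (MulEquiv.prime_iff (starRingAut (R := R)).toMulEquiv (p := π)).2 h
  exact this

omit [IsDomain R] in
theorem star_dvd {a b : R} (h : a ∣ b) : star a ∣ star b := by
  obtain ⟨c, rfl⟩ := h
  exact ⟨star c, by rw [star_mul, mul_comm]⟩

omit [IsDomain R] in
/-- a norm divisible by a prime `π` is `π π^*` times a norm -/
theorem norm_div {π w : R} (hπ : Prime π) (h : π ∣ w * star w) :
    ∃ e, w * star w = π * star π * (e * star e) := by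
  rcases hπ.dvd_or_dvd h with h1 | h1
  · obtain ⟨e, rfl⟩ := h1
    exact ⟨e, by rw [star_mul]; ring⟩
  · obtain ⟨e, he⟩ := h1
    refine ⟨e, ?_⟩
    have h2 : w = star e * star π := by rw [← star_star w, he, star_mul]
    rw [h2]
    simp only [star_mul, star_star]
    ring

/-! ### The lattice step -/

omit [IsDomain R] [StarRing R] in
theorem updateCol_mulVec_single (v : n → R) (i0 : n) :
    (updateCol (1 : Matrix n n R) i0 v) *ᵥ (Pi.single i0 1) = v := by
  rw [mulVec_single_one]
  ext j
  simp [updateCol_self]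

omit [IsDomain R] [StarRing R] in
theorem updateCol_mulVec_single_ne (v : n → R) {i0 k : n} (hk : k ≠ i0) :
    (updateCol (1 : Matrix n n R) i0 v) *ᵥ (Pi.single k 1) = Pi.single k 1 := by
  rw [mulVec_single_one]
  ext j
  rw [col_apply, updateCol_ne hk, one_apply, Pi.single_apply]

omit [IsDomain R] [StarRing R] in
theorem det_updateCol_one (v : n → R) (i0 : n) : (updateCol (1 : Matrix n n R) i0 v).det = v i0 := by
  rw [← cramer_apply, cramer_one]
  rfl

omit [IsDomain R] in
theorem entry_eq (A : Matrix n n R) (j k : n) :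
    A j k = star (Pi.single j (1 : R) : n → R) ⬝ᵥ (A *ᵥ Pi.single k 1) := by
  have : star (Pi.single j (1 : R) : n → R) = Pi.single j 1 := by
    ext i
    rw [Pi.star_apply]
    by_cases h : i = j
    · subst h; simp
    · simp [h]
  rw [this, single_one_dotProduct, mulVec_single_one]
  rfl

/-- One step of lattice enlargement. -/
theorem lattice_step [IsPrincipalIdealRing R] {B : Matrix n n R} (hB : Bᴴ = B) (h : NormPsd B)
    {π : R} (hπ : Prime π) (hdvd : π ∣ B.det) :
    ∃ E B' : Matrix n n R, B = Eᴴ * B' * E ∧ E.det = π ∧ B'ᴴ = B' ∧ NormPsd B' := by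
  classical
  -- a kernel vector modulo `π`, with one coordinate `1`
  obtain ⟨v, i0, hv0, hv⟩ : ∃ (v : n → R) (i0 : n), v i0 = 1 ∧ ∀ j, π ∣ (B *ᵥ v) j := by
    have hmax : (Ideal.span {π}).IsMaximal :=
      PrincipalIdealRing.isMaximal_of_irreducible hπ.irreducible
    let _ : Field (R ⧸ Ideal.span {π}) := Ideal.Quotient.field _
    set q := Ideal.Quotient.mk (Ideal.span {π}) with hq
    have hdet0 : (B.map q).det = 0 := by
      rw [← RingHom.mapMatrix_apply, ← RingHom.map_det]
      exact Ideal.Quotient.eq_zero_iff_mem.2 (Ideal.mem_span_singleton.2 hdvd)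
    obtain ⟨u, hu0, hu⟩ := exists_mulVec_eq_zero_iff.2 hdet0
    obtain ⟨i0, hi0⟩ := Function.ne_iff.1 hu0
    have hsurj : ∀ y : R ⧸ Ideal.span {π}, ∃ x, q x = y := Ideal.Quotient.mk_surjective
    choose r hr using fun j => hsurj ((u i0)⁻¹ * u j)
    refine ⟨Function.update r i0 1, i0, Function.update_self _ _ _, ?_⟩
    have h1 : ∀ j, q (Function.update r i0 1 j) = (u i0)⁻¹ * u j := by
      intro j
      by_cases hj : j = i0
      · subst hj
        rw [Function.update_self, map_one, inv_mul_cancel₀ hi0]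
      · rw [Function.update_of_ne hj, hr]
    intro j
    rw [← Ideal.mem_span_singleton, ← Ideal.Quotient.eq_zero_iff_mem]
    have h2 : q ((B *ᵥ Function.update r i0 1) j) = (u i0)⁻¹ * ((B.map q) *ᵥ u) j := by
      simp only [mulVec, dotProduct, map_sum, map_mul, h1, map_apply, Finset.mul_sum]
      refine Finset.sum_congr rfl fun k _ => ?_
      ring
    rw [← hq, h2, hu]
    simp
  set P : Matrix n n R := updateCol 1 i0 v with hP
  have hPdet : P.det = 1 := by rw [hP, det_updateCol_one, hv0]
  set B1 := Pᴴ * B * P with hB1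
  have hB1H : B1ᴴ = B1 := by
    rw [hB1, conjTranspose_mul, conjTranspose_mul, conjTranspose_conjTranspose, hB, Matrix.mul_assoc]
  -- divisibility
  have hcol : ∀ j, π ∣ B1 j i0 := by
    intro j
    rw [hB1, Matrix.mul_assoc, mul_apply]
    refine Finset.dvd_sum fun k _ => Dvd.dvd.mul_left ?_ _
    have : (B * P) k i0 = (B *ᵥ v) k := by
      rw [mul_apply, mulVec, dotProduct]
      refine Finset.sum_congr rfl fun l _ => ?_
      rw [hP, updateCol_self]
    rw [this]
    exact hv k
  choose c hc using hcol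
  obtain ⟨e, he⟩ : ∃ e, B1 i0 i0 = π * star π * (e * star e) := by
    obtain ⟨w, hw⟩ := h.conj P (Pi.single i0 1)
    rw [← entry_eq] at hw
    have h1 : π ∣ w * star w := by
      rw [← hw]
      exact ⟨_, hc i0⟩
    obtain ⟨e, he⟩ := norm_div hπ h1
    exact ⟨e, by rw [← he, ← hw]⟩
  set dd : n → R := Function.update 1 i0 π with hdd
  set B' : Matrix n n R := Matrix.of fun j k =>
    if k = i0 then (if j = i0 then e * star e else c j) else
      (if j = i0 then star (c k) else B1 j k) with hB'
  have hBB : B1 = (diagonal dd)ᴴ * B' * diagonal dd := by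
    ext j k
    rw [mul_diagonal, diagonal_conjTranspose, diagonal_mul, hB', of_apply, Pi.star_apply]
    by_cases hk : k = i0
    · by_cases hj : j = i0
      · subst hj hk
        rw [if_pos rfl, if_pos rfl, he, hdd, Function.update_self]
        ring
      · subst hk
        rw [if_pos rfl, if_neg hj, hdd, Function.update_of_ne hj, Function.update_self, Pi.one_apply,
          star_one, one_mul, hc, mul_comm]
    · by_cases hj : j = i0
      · subst hj
        rw [if_neg hk, if_pos rfl, hdd, Function.update_of_ne hk, Function.update_self, Pi.one_apply,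
          mul_one, ← star_mul, mul_comm (c k), ← hc, ← conjTranspose_apply, hB1H]
      · rw [if_neg hk, if_neg hj, hdd, Function.update_of_ne hk, Function.update_of_ne hj,
          Pi.one_apply, Pi.one_apply, star_one, one_mul, mul_one]
  have hB'H : B'ᴴ = B' := by
    ext j k
    rw [conjTranspose_apply, hB', of_apply, of_apply]
    by_cases hk : k = i0
    · by_cases hj : j = i0
      · subst hj hk
        simp [mul_comm]
      · simp [hk, hj]
    · by_cases hj : j = i0
      · simp [hk, hj]
      · rw [if_neg hj, if_neg hk, if_neg hk, if_neg hj, ← conjTranspose_apply, hB1H]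
  have hPP : P * P⁻¹ = 1 := Matrix.mul_nonsing_inv _ (by rw [hPdet]; exact isUnit_one)
  refine ⟨diagonal dd * P⁻¹, B', ?_, ?_, hB'H, ?_⟩
  · have h1 : (diagonal dd * P⁻¹)ᴴ * B' * (diagonal dd * P⁻¹) = (P⁻¹)ᴴ * B1 * P⁻¹ := by
      rw [hBB, conjTranspose_mul]
      simp only [Matrix.mul_assoc]
    rw [h1, hB1]
    have h2 : (P⁻¹)ᴴ * Pᴴ = 1 := by rw [← conjTranspose_mul, hPP, conjTranspose_one]
    calc B = 1 * B * 1 := by rw [Matrix.one_mul, Matrix.mul_one]
      _ = ((P⁻¹)ᴴ * Pᴴ) * B * (P * P⁻¹) := by rw [h2, hPP]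
      _ = _ := by simp only [Matrix.mul_assoc]
  · rw [det_mul, det_diagonal, det_nonsing_inv, hPdet, Ring.inverse_one, mul_one, hdd,
      Finset.prod_update_of_mem (Finset.mem_univ _)]
    simp
  · intro v'
    -- `π v' = D u`
    set u : n → R := fun j => if j = i0 then v' j else π * v' j with hu
    have hDu : diagonal dd *ᵥ u = π • v' := by
      ext j
      rw [mulVec_diagonal, Pi.smul_apply, smul_eq_mul, hu]
      by_cases hj : j = i0
      · subst hj
        simp [hdd]
      · simp [hdd, hj]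
    obtain ⟨w, hw⟩ := h.conj P u
    rw [← hB1, hBB, form_conj, hDu, mulVec_smul, star_smul, smul_dotProduct, dotProduct_smul,
      smul_eq_mul, smul_eq_mul, ← mul_assoc] at hw
    have h1 : π ∣ w * star w := by
      rw [← hw]
      exact ⟨star π * (star v' ⬝ᵥ (B' *ᵥ v')), by ring⟩
    obtain ⟨e', he'⟩ := norm_div hπ h1
    refine ⟨e', ?_⟩
    have h2 : star π * π ≠ 0 := mul_ne_zero (star_ne_zero.2 hπ.ne_zero) hπ.ne_zero
    exact mul_left_cancel₀ h2 (by rw [hw, he']; ring)

/-- Enlarging the lattice until the determinant is a unit.  For every choice `C` of primes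
(one of `π`, `π^*` for every `π`) all primes of `det E` are chosen. -/
theorem exists_unit_det [IsPrincipalIdealRing R] (C : R → Prop)
    (hC : ∀ π, Prime π → C π ∨ C (star π)) {B : Matrix n n R} (hB : Bᴴ = B) (h : NormPsd B)
    (hdet : B.det ≠ 0) :
    ∃ E B' : Matrix n n R, B = Eᴴ * B' * E ∧ IsUnit B'.det ∧ B'ᴴ = B' ∧ NormPsd B' ∧
      ∀ q, Prime q → q ∣ E.det → ∃ π, C π ∧ Associated q π := by
  classical
  have key : ∀ d : R, ∀ B : Matrix n n R, B.det = d → Bᴴ = B → NormPsd B → B.det ≠ 0 →
      ∃ E B' : Matrix n n R, B = Eᴴ * B' * E ∧ IsUnit B'.det ∧ B'ᴴ = B' ∧ NormPsd B' ∧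
      ∀ q, Prime q → q ∣ E.det → ∃ π, C π ∧ Associated q π := by
    intro d
    induction d using (IsWellFounded.wf (r := (DvdNotUnit : R → R → Prop))).induction with
    | _ d ih =>
    intro B hd hB h hdet
    by_cases hu : IsUnit B.det
    · refine ⟨1, B, by simp, hu, hB, h, fun q hq hq1 => ?_⟩
      rw [det_one] at hq1
      exact absurd (isUnit_of_dvd_one hq1) hq.not_isUnit
    obtain ⟨q, hq, hqd⟩ := WfDvdMonoid.exists_irreducible_factor hu hdet
    have hqp : Prime q := hq.prime
    obtain ⟨π, hπ, hCπ, hπd⟩ : ∃ π, Prime π ∧ C π ∧ π ∣ B.det := by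
      rcases hC q hqp with h1 | h1
      · exact ⟨q, hqp, h1, hqd⟩
      · refine ⟨star q, star_prime hqp, h1, ?_⟩
        have h2 : star B.det = B.det := by rw [← det_conjTranspose, hB]
        rw [← h2]
        exact star_dvd hqd
    obtain ⟨E1, B1, hBE, hE1, hB1, hp1⟩ := lattice_step hB h hπ hπd
    have hdet1 : B.det = star π * π * B1.det := by
      rw [hBE, det_mul, det_mul, det_conjTranspose, hE1]
      ring
    have hB10 : B1.det ≠ 0 := by
      intro h0
      rw [hdet1, h0, mul_zero] at hdet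
      exact hdet rfl
    have hdn : DvdNotUnit B1.det d := by
      refine ⟨hB10, star π * π, ?_, ?_⟩
      · intro hu1
        exact hπ.not_isUnit (isUnit_of_mul_isUnit_right hu1)
      · rw [← hd, hdet1, mul_comm]
    obtain ⟨E, B', hE, hu', hB', hp', hq'⟩ := ih _ hdn B1 rfl hB1 hp1 hB10
    refine ⟨E * E1, B', ?_, hu', hB', hp', fun q hq hqd => ?_⟩
    · rw [hBE, hE, conjTranspose_mul]
      simp only [Matrix.mul_assoc]
    · rw [det_mul, hE1] at hqd
      rcases hq.dvd_or_dvd hqd with h1 | h1
      · exact hq' q hq h1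
      · exact ⟨π, hCπ, hq.associated_of_dvd hπ h1⟩
  exact key _ B rfl hB h hdet

end ring

end Vale.Agent.P256.H230
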