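import Vale.Agent.P256.H230.FR

/-!
# P256, helper230: matrix Fejer-Riesz over `K[X]`, `K` a field with involution
-/

open Matrix Polynomial

namespace Vale.Agent.P256.H230

section poly

variable {K : Type*} [Field K] [StarRing K]

/-- the involution of `K[X]` with `X^* = X` -/
noncomputable scoped instance polyStarRing : StarRing K[X] where
  star P := P.map (starRingEnd K)
  star_involutive P := by
    ext i
    simp
  star_mul P Q := by
    rw [Polynomial.map_mul, mul_comm]
  star_add P Q := Polynomial.map_add _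

theorem star_def (P : K[X]) : star P = P.map (starRingEnd K) := rfl

@[simp] theorem coeff_star (P : K[X]) (i : ℕ) : (star P).coeff i = star (P.coeff i) := by
  rw [star_def, coeff_map]
  rfl

@[simp] theorem star_C (a : K) : star (C a) = C (star a) := by
  rw [star_def, map_C]
  rfl

@[simp] theorem star_X : star (X : K[X]) = X := by
  rw [star_def, map_X]

@[simp] theorem natDegree_star (P : K[X]) : (star P).natDegree = P.natDegree :=
  natDegree_map_eq_of_injective (starRingEnd K).injective P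

theorem natDegree_norm (w : K[X]) : (w * star w).natDegree = 2 * w.natDegree := by
  by_cases h : w = 0
  · simp [h]
  · rw [natDegree_mul h (star_ne_zero.2 h), natDegree_star, two_mul]

theorem aniso_deg (hA : Aniso K) {ι : Type*} [Fintype ι] (w : ι → K[X]) (m : ℕ)
    (h : ∀ k, 2 * m < k → (∑ i, w i * star (w i)).coeff k = 0) (i : ι) : (w i).natDegree ≤ m := by
  classical
  by_contra hlt
  push Not at hlt
  obtain ⟨i1, -, hi1⟩ := Finset.exists_mem_eq_sup (Finset.univ : Finset ι) ⟨i, Finset.mem_univ _⟩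
    (fun i => (w i).natDegree)
  set D := (Finset.univ : Finset ι).sup (fun i => (w i).natDegree) with hD
  have hle : ∀ i, (w i).natDegree ≤ D := fun i =>
    Finset.le_sup (f := fun i => (w i).natDegree) (Finset.mem_univ i)
  have hmD : m < D := lt_of_lt_of_le hlt (hle i)
  have h1 := h (D + D) (by omega)
  rw [finsetSum_coeff] at h1
  have h2 : ∀ i, (w i * star (w i)).coeff (D + D) = (w i).coeff D * star ((w i).coeff D) := by
    intro i
    rw [coeff_mul_add_eq_of_natDegree_le (hle i) (by rw [natDegree_star]; exact hle i), coeff_star]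
  simp only [h2] at h1
  have h3 := hA.of_fintype _ h1 i1
  rw [hi1] at h3
  simp only [coeff_natDegree, leadingCoeff_eq_zero] at h3
  rw [h3, natDegree_zero] at hi1
  omega

theorem Aniso.poly (hA : Aniso K) : Aniso K[X] := by
  intro d w hw i
  have h1 : ∀ i, (w i).natDegree ≤ 0 := aniso_deg hA w 0 (by
    intro k _
    rw [hw, coeff_zero])
  have h2 : ∀ i, w i = C ((w i).coeff 0) := fun i => eq_C_of_natDegree_le_zero (h1 i)
  have h3 : ∑ i, (w i).coeff 0 * star ((w i).coeff 0) = 0 := by
    have h4 := congrArg (fun P : K[X] => P.coeff 0) hw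
    simp only [finsetSum_coeff, mul_coeff_zero, coeff_star, coeff_zero] at h4
    exact h4
  rw [h2 i, hA _ _ h3 i, C_0]

/-- constants -/
theorem NormPsd.of_map_C {n : Type*} [Fintype n] {B : Matrix n n K}
    (h : NormPsd (B.map C)) : NormPsd B := by
  intro v
  obtain ⟨w, hw⟩ := h (fun i => C (v i))
  have h1 : star (fun i => C (v i)) ⬝ᵥ (B.map C *ᵥ fun i => C (v i)) =
      C (star v ⬝ᵥ (B *ᵥ v)) := by
    simp only [dotProduct, mulVec, Pi.star_apply, star_C, Matrix.map_apply, map_sum, map_mul]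
  rw [h1] at hw
  have h2 : w.natDegree = 0 := by
    have h3 := congrArg natDegree hw
    rw [natDegree_C, natDegree_norm] at h3
    omega
  refine ⟨w.coeff 0, ?_⟩
  have h3 := congrArg (fun P : K[X] => P.coeff 0) hw
  simpa [mul_coeff_zero] using h3

end poly

/-! ### Cholesky over `K` -/

section chol

variable {K : Type*} [Field K] [StarRing K]

theorem chol : ∀ (n : ℕ) (B : Matrix (Fin n) (Fin n) K), Bᴴ = B → NormPsd B →
    (∀ v, star v ⬝ᵥ (B *ᵥ v) = 0 → v = 0) →
    ∃ Q : Matrix (Fin n) (Fin n) K, B = Qᴴ * Q ∧ ∀ i j, j < i → Q i j = 0 := by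
  intro n
  induction n with
  | zero =>
    intro B _ _ _
    exact ⟨0, by ext i; exact i.elim0, fun i => i.elim0⟩
  | succ n ih =>
    intro B hB hN hpd
    obtain ⟨c, hc⟩ := hN (Pi.single 0 1)
    rw [← entry_eq B 0 0] at hc
    have hc0 : c ≠ 0 := by
      rintro rfl
      rw [zero_mul, entry_eq B 0 0] at hc
      have := congrFun (hpd _ hc) 0
      simp at this
    have hsc0 : star c ≠ 0 := star_ne_zero.2 hc0
    have hβ0 : B 0 0 ≠ 0 := by
      rw [hc]
      exact mul_ne_zero hc0 hsc0
    have hBs : ∀ i j, star (B i j) = B j i := fun i j => by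
      rw [← conjTranspose_apply, hB]
    set S : Matrix (Fin n) (Fin n) K := Matrix.of fun i j =>
      B i.succ j.succ - B i.succ 0 * B 0 j.succ / B 0 0 with hS
    have hSH : Sᴴ = S := by
      ext i j
      rw [conjTranspose_apply, hS, of_apply, of_apply, star_sub, star_div₀, star_mul, hBs, hBs, hBs,
        hBs]
    -- the Schur complement
    have hform : ∀ x : Fin n → K, ∃ v : Fin (n + 1) → K, (∀ i : Fin n, v i.succ = x i) ∧
        star v ⬝ᵥ (B *ᵥ v) = star x ⬝ᵥ (S *ᵥ x) := by
      intro x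
      set t := (∑ j : Fin n, B 0 j.succ * x j) with ht
      have hts : star t = ∑ j : Fin n, B j.succ 0 * star (x j) := by
        rw [ht, star_sum]
        refine Finset.sum_congr rfl fun j _ => ?_
        rw [star_mul, hBs, mul_comm]
      refine ⟨Fin.cons (-(t / B 0 0)) x, fun i => by simp, ?_⟩
      have e1 : ∀ i, (B *ᵥ (Fin.cons (-(t / B 0 0)) x : Fin (n + 1) → K)) i =
          -(B i 0 * (t / B 0 0)) + ∑ j : Fin n, B i j.succ * x j := by
        intro i
        rw [mulVec, dotProduct, Fin.sum_univ_succ]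
        simp
      have e2 : ∀ i, (S *ᵥ x) i = (∑ j : Fin n, B i.succ j.succ * x j) - B i.succ 0 * t / B 0 0 := by
        intro i
        rw [mulVec, dotProduct, ht, Finset.mul_sum, Finset.sum_div, ← Finset.sum_sub_distrib]
        refine Finset.sum_congr rfl fun j _ => ?_
        rw [hS, of_apply]
        ring
      rw [dotProduct, Fin.sum_univ_succ, e1, ← ht]
      have e3 : -(B 0 0 * (t / B 0 0)) + t = 0 := by
        field_simp
        ring
      rw [e3, mul_zero, zero_add, dotProduct]
      refine Finset.sum_congr rfl fun i _ => ?_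
      rw [e1, e2, Pi.star_apply, Pi.star_apply, Fin.cons_succ]
      ring
    have hSN : NormPsd S := by
      intro x
      obtain ⟨v, -, hv⟩ := hform x
      rw [← hv]
      exact hN v
    have hSpd : ∀ x, star x ⬝ᵥ (S *ᵥ x) = 0 → x = 0 := by
      intro x hx
      obtain ⟨v, hv1, hv⟩ := hform x
      have h1 := hpd v (by rw [hv, hx])
      ext i
      rw [← hv1, h1]
      rfl
    obtain ⟨Q', hQ', hQ't⟩ := ih S hSH hSN hSpd
    set Q : Matrix (Fin (n + 1)) (Fin (n + 1)) K := Matrix.of
      (Fin.cons (Fin.cons (star c) fun j => B 0 j.succ / c)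
        fun i => Fin.cons 0 fun j => Q' i j) with hQ
    have q00 : Q 0 0 = star c := rfl
    have q0s : ∀ j : Fin n, Q 0 j.succ = B 0 j.succ / c := fun j => rfl
    have qs0 : ∀ i : Fin n, Q i.succ 0 = 0 := fun i => rfl
    have qss : ∀ i j : Fin n, Q i.succ j.succ = Q' i j := fun i j => rfl
    refine ⟨Q, ?_, ?_⟩
    · ext i j
      rw [mul_apply, Fin.sum_univ_succ]
      simp only [conjTranspose_apply]
      refine Fin.cases ?_ (fun i => ?_) i
      · refine Fin.cases ?_ (fun j => ?_) j
        · rw [q00]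
          simp only [qs0, mul_zero, Finset.sum_const_zero, add_zero, star_star, hc]
        · rw [q00, q0s]
          simp only [qs0, star_zero, zero_mul, Finset.sum_const_zero, add_zero, star_star]
          field_simp
      · refine Fin.cases ?_ (fun j => ?_) j
        · rw [q00, q0s]
          simp only [qs0, mul_zero, Finset.sum_const_zero, add_zero]
          rw [star_div₀, hBs]
          field_simp
        · rw [q0s, q0s]
          simp only [qss]
          have h1 := congrFun (congrFun hQ' i) j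
          rw [mul_apply, hS, of_apply] at h1
          simp only [conjTranspose_apply] at h1
          rw [← h1, star_div₀, hBs, hc]
          field_simp
          ring
    · intro i j
      refine Fin.cases (fun h => absurd h (Fin.not_lt_zero _)) (fun i => ?_) i
      refine Fin.cases (fun _ => rfl) (fun j h => ?_) j
      rw [qss]
      exact hQ't i j (Fin.succ_lt_succ_iff.1 h)

theorem chol_fintype {n : Type*} [Fintype n] [DecidableEq n] (B : Matrix n n K) (hB : Bᴴ = B)
    (h : NormPsd B) (hpd : ∀ v, star v ⬝ᵥ (B *ᵥ v) = 0 → v = 0) :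
    ∃ Q : Matrix n n K, B = Qᴴ * Q := by
  classical
  set e := Fintype.equivFin n
  set B' := B.submatrix e.symm e.symm with hB'
  have hform : ∀ v : Fin (Fintype.card n) → K,
      star v ⬝ᵥ (B' *ᵥ v) = star (v ∘ e) ⬝ᵥ (B *ᵥ (v ∘ e)) := by
    intro v
    rw [hB', submatrix_mulVec_equiv]
    simp only [Equiv.symm_symm, dotProduct]
    rw [← e.symm.sum_comp]
    simp
  obtain ⟨Q, hQ, -⟩ := chol _ B' (by rw [hB', conjTranspose_submatrix, hB])
    (fun v => by rw [hform]; exact h _) (fun v hv => by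
      rw [hform] at hv
      have := hpd _ hv
      ext i
      have h1 := congrFun this (e.symm i)
      simpa using h1)
  refine ⟨Q.submatrix e e, ?_⟩
  rw [conjTranspose_submatrix, submatrix_mul_equiv, ← hQ, hB']
  ext i j
  simp

end chol

/-! ### Degree reduction -/

section typed

variable {K : Type*} [Field K] [StarRing K]
variable {n : Type*} [Fintype n] [DecidableEq n]

omit [StarRing K] in
theorem coeff_prod_of_le {ι : Type*} (s : Finset ι) (f : ι → K[X]) (m : ι → ℕ)
    (h : ∀ i ∈ s, (f i).natDegree ≤ m i) :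
    (∏ i ∈ s, f i).natDegree ≤ ∑ i ∈ s, m i ∧
      (∏ i ∈ s, f i).coeff (∑ i ∈ s, m i) = ∏ i ∈ s, (f i).coeff (m i) := by
  classical
  induction s using Finset.induction_on with
  | empty => simp
  | insert i s hi ih =>
    obtain ⟨h1, h2⟩ := ih fun j hj => h j (Finset.mem_insert_of_mem hj)
    have h3 := h i (Finset.mem_insert_self _ _)
    rw [Finset.prod_insert hi, Finset.sum_insert hi, Finset.prod_insert hi]
    exact ⟨natDegree_mul_le.trans (add_le_add h3 h1), by
      rw [coeff_mul_add_eq_of_natDegree_le h3 h1, h2]⟩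

omit [StarRing K] in
theorem coeff_det_of_le (B : Matrix n n K[X]) (m : n → ℕ)
    (h : ∀ i j, (B i j).natDegree ≤ m i + m j) :
    B.det.coeff (∑ i, (m i + m i)) = (Matrix.of fun i j => (B i j).coeff (m i + m j)).det := by
  rw [det_apply', det_apply', finsetSum_coeff]
  refine Finset.sum_congr rfl fun σ _ => ?_
  have h1 : ((↑(↑(Equiv.Perm.sign σ) : ℤ) : K[X])) = C ((↑(↑(Equiv.Perm.sign σ) : ℤ) : K)) := by
    simp
  rw [h1, coeff_C_mul]
  congr 1
  have h2 : ∑ i, (m i + m i) = ∑ i, (m (σ i) + m i) := by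
    rw [Finset.sum_add_distrib, Finset.sum_add_distrib, Equiv.sum_comp σ m]
  rw [h2, (coeff_prod_of_le Finset.univ (fun i => B (σ i) i) (fun i => m (σ i) + m i)
    fun i _ => h _ _).2]
  rfl

theorem typed (hA : Aniso K) : ∀ (N : ℕ) (m : n → ℕ), ∑ i, m i = N →
    ∀ B : Matrix n n K[X], (∀ i j, (B i j).natDegree ≤ m i + m j) → Bᴴ = B → NormPsd B →
    IsUnit B.det → ∃ Q : Matrix n n K[X], B = Qᴴ * Q := by
  classical
  intro N
  induction N using Nat.strong_induction_on with
  | _ N ih =>
  intro m hm B hdeg hB hN hu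
  have hdet0 : B.det ≠ 0 := hu.ne_zero
  have hAp := hA.poly
  rcases Nat.eq_zero_or_pos N with hN0 | hN0
  · -- constant matrix
    have hm0 : ∀ i, m i = 0 := by
      intro i
      rw [hN0, Finset.sum_eq_zero_iff] at hm
      exact hm i (Finset.mem_univ _)
    set B0 : Matrix n n K := B.map fun P => P.coeff 0 with hB0
    have hBB : B = B0.map C := by
      ext1 i j
      rw [hB0, Matrix.map_apply, Matrix.map_apply]
      exact eq_C_of_natDegree_le_zero (by have := hdeg i j; rw [hm0, hm0] at this; exact this)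
    have hB0H : B0ᴴ = B0 := by
      ext i j
      rw [conjTranspose_apply, hB0, Matrix.map_apply, Matrix.map_apply, ← coeff_star,
        ← conjTranspose_apply, hB]
    have hpd : ∀ v, star v ⬝ᵥ (B0 *ᵥ v) = 0 → v = 0 := by
      intro v hv
      have h1 : star (fun i => C (v i)) ⬝ᵥ (B *ᵥ fun i => C (v i)) = C (star v ⬝ᵥ (B0 *ᵥ v)) := by
        rw [hBB]
        simp only [dotProduct, mulVec, Pi.star_apply, star_C, Matrix.map_apply, map_sum, map_mul]
      have h2 := hN.pd hAp hB hdet0 (v := fun i => C (v i)) (by rw [h1, hv, C_0])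
      ext i
      have h3 := congrFun h2 i
      exact C_eq_zero.1 h3
    obtain ⟨Q, hQ⟩ := chol_fintype B0 hB0H (NormPsd.of_map_C (by rw [← hBB]; exact hN)) hpd
    refine ⟨Q.map C, ?_⟩
    rw [hBB, hQ]
    ext1 i j
    simp only [Matrix.map_apply, mul_apply, conjTranspose_apply, map_sum, map_mul, star_C]
  -- the matrix of top coefficients is singular
  set T : Matrix n n K := Matrix.of fun i j => (B i j).coeff (m i + m j) with hT
  have hTdet : T.det = 0 := by
    rw [hT, ← coeff_det_of_le B m hdeg]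
    refine coeff_eq_zero_of_natDegree_lt ?_
    rw [natDegree_eq_zero_of_isUnit hu, Finset.sum_add_distrib, hm]
    omega
  obtain ⟨c, hc0, hc⟩ := exists_mulVec_eq_zero_iff.2 hTdet
  obtain ⟨i1, hi1⟩ := Function.ne_iff.1 hc0
  obtain ⟨i0, hi0s, hi0⟩ := Finset.exists_max_image (Finset.univ.filter fun i => c i ≠ 0) m
    ⟨i1, by simpa using hi1⟩
  have hci0 : c i0 ≠ 0 := by simpa using hi0s
  have hmax : ∀ i, c i ≠ 0 → m i ≤ m i0 := fun i hi => hi0 i (by simpa using hi)
  set v : n → K[X] := fun i => C (c i) * X ^ (m i0 - m i) with hv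
  have hBv : ∀ j, (B *ᵥ v) j = ∑ i, B j i * (C (c i) * X ^ (m i0 - m i)) := fun j => rfl
  -- degree and top coefficient of `B v`
  have hterm : ∀ j i, (B j i * (C (c i) * X ^ (m i0 - m i))).natDegree ≤ m j + m i0 ∧
      (B j i * (C (c i) * X ^ (m i0 - m i))).coeff (m j + m i0) = T j i * c i := by
    intro j i
    by_cases hci : c i = 0
    · simp [hci]
    have h1 := hmax i hci
    have h2 : (C (c i) * X ^ (m i0 - m i) : K[X]).natDegree ≤ m i0 - m i := natDegree_C_mul_X_pow_le _ _
    have h3 : m j + m i0 = (m j + m i) + (m i0 - m i) := by omega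
    rw [h3]
    refine ⟨natDegree_mul_le.trans (add_le_add (hdeg j i) h2), ?_⟩
    rw [coeff_mul_add_eq_of_natDegree_le (hdeg j i) h2, coeff_C_mul_X_pow, if_pos rfl, hT, of_apply]
  have hBvdeg : ∀ j k, m j + m i0 ≤ k → ((B *ᵥ v) j).coeff k = 0 := by
    intro j k hk
    rw [hBv, finsetSum_coeff]
    rcases hk.lt_or_eq with h1 | h1
    · exact Finset.sum_eq_zero fun i _ =>
        coeff_eq_zero_of_natDegree_lt (lt_of_le_of_lt (hterm j i).1 h1)
    · rw [← h1]
      simp only [(hterm j _).2]
      exact congrFun hc j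
  set q := star v ⬝ᵥ (B *ᵥ v) with hq
  have hqdeg : ∀ k, 2 * m i0 ≤ k → q.coeff k = 0 := by
    intro k hk
    rw [hq, dotProduct, finsetSum_coeff]
    refine Finset.sum_eq_zero fun j _ => ?_
    by_cases hcj : c j = 0
    · simp [hv, hcj]
    have h1 := hmax j hcj
    have h2 : star v j = C (star (c j)) * X ^ (m i0 - m j) := by
      rw [Pi.star_apply, hv]
      simp only [star_mul, star_pow, star_X, star_C]
      rw [mul_comm]
    have h3 : k = (k - (m i0 - m j)) + (m i0 - m j) := by omega
    rw [h2, mul_assoc, coeff_C_mul, mul_comm (X ^ _), h3, coeff_mul_X_pow,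
      hBvdeg j _ (by omega), mul_zero]
  obtain ⟨w, hw⟩ := hN v
  rw [← hq] at hw
  have hvne : v ≠ 0 := by
    intro h0
    have h1 := congrFun h0 i0
    simp only [hv, Nat.sub_self, pow_zero, mul_one, Pi.zero_apply] at h1
    exact hci0 (C_eq_zero.1 h1)
  have hq0 : q ≠ 0 := fun h0 => hvne (hN.pd hAp hB hdet0 h0)
  have hqd : 2 * w.natDegree < 2 * m i0 := by
    by_contra hlt
    push Not at hlt
    have h1 := hqdeg _ hlt
    rw [hw, ← natDegree_norm, coeff_natDegree, leadingCoeff_eq_zero, ← hw] at h1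
    exact hq0 h1
  have hm0 : 1 ≤ m i0 := by omega
  set P : Matrix n n K[X] := updateCol 1 i0 v with hP
  have hPdet : IsUnit P.det := by
    rw [hP, det_updateCol_one, hv]
    simp only [Nat.sub_self, pow_zero, mul_one]
    exact isUnit_C.2 (isUnit_iff_ne_zero.2 hci0)
  set B1 := Pᴴ * B * P with hB1
  have hB1H : B1ᴴ = B1 := by
    rw [hB1, conjTranspose_mul, conjTranspose_mul, conjTranspose_conjTranspose, hB, Matrix.mul_assoc]
  have hent : ∀ j k, B1 j k = star (P *ᵥ (Pi.single j 1)) ⬝ᵥ (B *ᵥ (P *ᵥ (Pi.single k 1))) := by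
    intro j k
    rw [entry_eq B1 j k, hB1, form_conj2]
  have hP0 : P *ᵥ (Pi.single i0 1) = v := updateCol_mulVec_single v i0
  have hP1 : ∀ k, k ≠ i0 → P *ᵥ (Pi.single k 1) = Pi.single k 1 :=
    fun k hk => updateCol_mulVec_single_ne v hk
  have hE : ∀ (j : n) (x : n → K[X]), star (Pi.single j (1 : K[X]) : n → K[X]) ⬝ᵥ x = x j := by
    intro j x
    rw [star_dotProduct, dotProduct_single_one, Pi.star_apply, star_star]
  set m' : n → ℕ := Function.update m i0 (m i0 - 1) with hm'
  have hm'0 : m' i0 = m i0 - 1 := by rw [hm', Function.update_self]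
  have hm'1 : ∀ j, j ≠ i0 → m' j = m j := fun j hj => by rw [hm', Function.update_of_ne hj]
  have hd1 : ∀ j, j ≠ i0 → (B1 j i0).natDegree ≤ m' j + m' i0 := by
    intro j hj
    rw [hent, hP1 j hj, hP0, hE, hm'0, hm'1 j hj, natDegree_le_iff_coeff_eq_zero]
    intro k hk
    exact hBvdeg j k (by omega)
  have hdeg1 : ∀ j k, (B1 j k).natDegree ≤ m' j + m' k := by
    intro j k
    by_cases hj : j = i0
    · by_cases hk : k = i0
      · rw [hj, hk, hent, hP0, ← hq, hw, natDegree_norm, hm'0]
        omega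
      · rw [← hB1H, conjTranspose_apply, natDegree_star, hj, add_comm]
        exact hd1 k hk
    · by_cases hk : k = i0
      · rw [hk]
        exact hd1 j hj
      · rw [hent, hP1 j hj, hP1 k hk, ← entry_eq, hm'1 j hj, hm'1 k hk]
        exact hdeg j k
  have hsum : ∑ i, m' i = N - 1 := by
    have h1 : ∑ i, m i = m i0 + ∑ i ∈ Finset.univ \ {i0}, m i := by
      rw [← Finset.sum_update_of_mem (Finset.mem_univ i0) m (m i0), Function.update_eq_self]
    have h2 : ∑ i, m' i = (m i0 - 1) + ∑ i ∈ Finset.univ \ {i0}, m i := by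
      rw [hm', Finset.sum_update_of_mem (Finset.mem_univ i0)]
    omega
  have hu1 : IsUnit B1.det := by
    rw [hB1, det_mul, det_mul, det_conjTranspose]
    exact ((hPdet.star).mul hu).mul hPdet
  obtain ⟨Q, hQ⟩ := ih (N - 1) (by omega) m' hsum B1 hdeg1 hB1H (hN.conj P) hu1
  have hPP : P * P⁻¹ = 1 := Matrix.mul_nonsing_inv _ hPdet
  refine ⟨Q * P⁻¹, ?_⟩
  rw [conjTranspose_mul]
  have h2 : (P⁻¹)ᴴ * Pᴴ = 1 := by rw [← conjTranspose_mul, hPP, conjTranspose_one]
  calc B = 1 * B * 1 := by rw [Matrix.one_mul, Matrix.mul_one]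
    _ = ((P⁻¹)ᴴ * Pᴴ) * B * (P * P⁻¹) := by rw [h2, hPP]
    _ = (P⁻¹)ᴴ * B1 * P⁻¹ := by rw [hB1]; simp only [Matrix.mul_assoc]
    _ = _ := by rw [hQ]; simp only [Matrix.mul_assoc]

/-- **Matrix Fejer-Riesz theorem** over a field with involution. -/
theorem fejer_riesz (hA : Aniso K) (S : K[X] → Prop) (hS : ∀ π, Prime π → S π ∨ S (star π))
    {B : Matrix n n K[X]} (hB : Bᴴ = B) (h : NormPsd B) (hdet : B.det ≠ 0) :
    ∃ Q : Matrix n n K[X], B = Qᴴ * Q ∧ Q.det ≠ 0 ∧
      ∀ q, Prime q → q ∣ Q.det → ∃ π, S π ∧ Associated q π := by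
  obtain ⟨E, B', hBE, hu, hB', hN', hE⟩ := exists_unit_det S hS hB h hdet
  obtain ⟨M, hM⟩ : ∃ M : ℕ, ∀ i j, (B' i j).natDegree ≤ M :=
    ⟨∑ i, ∑ j, (B' i j).natDegree, fun i j =>
      (Finset.single_le_sum (f := fun j => (B' i j).natDegree) (fun _ _ => Nat.zero_le _)
        (Finset.mem_univ j)).trans
      (Finset.single_le_sum (f := fun i => ∑ j, (B' i j).natDegree) (fun _ _ => Nat.zero_le _)
        (Finset.mem_univ i))⟩
  obtain ⟨Q, hQ⟩ := typed hA _ (fun _ => M) rfl B' (fun i j => (hM i j).trans (Nat.le_add_left _ _))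
    hB' hN' hu
  have hQu : IsUnit Q.det := by
    rw [hQ, det_mul] at hu
    exact isUnit_of_mul_isUnit_right hu
  have hBQ : B = (Q * E)ᴴ * (Q * E) := by
    rw [hBE, hQ, conjTranspose_mul]
    simp only [Matrix.mul_assoc]
  refine ⟨Q * E, hBQ, ?_, ?_⟩
  · intro h0
    rw [hBQ, det_mul, h0, mul_zero] at hdet
    exact hdet rfl
  · intro q hq hqd
    rw [det_mul] at hqd
    rcases hq.dvd_or_dvd hqd with h1 | h1
    · exact absurd (isUnit_of_dvd_unit h1 hQu) hq.not_isUnit
    · exact hE q hq h1

end typed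

end Vale.Agent.P256.H230
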