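import Vale.Agent.P256.H230.Germ

/-!
# P256, helper230: nonnegative families are norms (function level)
-/

open Filter Topology Polynomial

namespace Vale.Agent.P256.H230

open Vale.Agent.P267.H823

/-- the involution on families of polynomials -/
noncomputable def fstar (P : ℂ → ℂ[X]) : ℂ → ℂ[X] := fun z => (P (star z)).map (starRingEnd ℂ)

theorem eval_map_star (P : ℂ[X]) (w : ℂ) : (P.map (starRingEnd ℂ)).eval (star w) = star (P.eval w) := by
  have := Polynomial.eval₂_at_apply (p := P) (starRingEnd ℂ) w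
  rw [eval_map]
  exact this

theorem eval_fstar (P : ℂ → ℂ[X]) (z w : ℂ) :
    (fstar P z).eval w = star ((P (star z)).eval (star w)) := by
  rw [fstar, ← eval_map_star, star_star]

theorem fstar_mul (P Q : ℂ → ℂ[X]) : fstar (fun z => P z * Q z) = fun z => fstar P z * fstar Q z := by
  funext z
  rw [fstar, Polynomial.map_mul]
  rfl

theorem fstar_fstar (P : ℂ → ℂ[X]) : fstar (fstar P) = P := by
  funext z
  rw [fstar, fstar, Polynomial.map_map, star_star]
  ext i
  simp

theorem mf_fstar {d : ℕ} {P : ℂ → ℂ[X]} (h : MF d P) : MF d (fstar P) where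
  monic z := (h.monic _).map _
  deg z := by rw [fstar, natDegree_map_eq_of_injective (starRingEnd ℂ).injective, h.deg]
  an i := by
    have h1 : (fun z => (fstar P z).coeff i) = cstar fun z => (P z).coeff i := by
      funext z
      rw [fstar, coeff_map]
      rfl
    rw [h1]
    exact analyticAt_cstar (h.an i)

theorem mf_mul {d1 d2 : ℕ} {P Q : ℂ → ℂ[X]} (h1 : MF d1 P) (h2 : MF d2 Q) :
    MF (d1 + d2) fun z => P z * Q z where
  monic z := (h1.monic z).mul (h2.monic z)
  deg z := by rw [(h1.monic z).natDegree_mul (h2.monic z), h1.deg, h2.deg]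
  an := h1.an.mul h2.an

theorem mf_prod {ι : Type*} (s : Finset ι) {k : ι → ℕ} {Q : ι → ℂ → ℂ[X]}
    (h : ∀ i ∈ s, MF (k i) (Q i)) : MF (∑ i ∈ s, k i) fun z => ∏ i ∈ s, Q i z where
  monic z := monic_prod_of_monic _ _ fun i hi => (h i hi).monic z
  deg z := by
    rw [natDegree_prod_of_monic _ _ fun i hi => (h i hi).monic z]
    exact Finset.sum_congr rfl fun i hi => (h i hi).deg z
  an := AnC.prod s fun i hi => (h i hi).an

theorem branch_cstar {k : ℕ} {h : ℂ → ℂ} (H : IsBranch k h) : IsBranch k (cstar h) where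
  pos := H.pos
  an := analyticAt_cstar H.an
  prim η hη hη1 := by
    have h1 := H.prim (star η) (by rw [← star_pow, hη, star_one]) (fun h => hη1 (by
      rw [← star_star η, h, star_one]))
    filter_upwards [tendsto_star_l0.eventually h1] with t ht h2
    refine ht ?_
    simp only [cstar] at h2
    have h3 := star_injective h2
    rw [star_mul, mul_comm] at h3
    exact h3

theorem eqn_fstar {k : ℕ} {h : ℂ → ℂ} {Q : ℂ → ℂ[X]} (hk : 0 < k) (H : IsEqn k h Q) :
    IsEqn k (cstar h) (fstar Q) where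
  mf := mf_fstar H.mf
  eq := by
    filter_upwards [tendsto_star_nhds.eventually H.eq] with s hs
    rw [fstar, star_pow, hs, Polynomial.map_prod]
    refine Finset.prod_nbij' star star ?_ ?_ ?_ ?_ ?_
    · intro η hη
      rw [mem_μ hk] at hη ⊢
      rw [← star_pow, hη, star_one]
    · intro η hη
      rw [mem_μ hk] at hη ⊢
      rw [← star_pow, hη, star_one]
    · intro η _
      exact star_star η
    · intro η _
      exact star_star η
    · intro η _
      rw [Polynomial.map_sub, map_X, map_C]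
      simp only [cstar]
      rw [star_mul, star_star, mul_comm]
      rfl

/-- nonnegative at real points -/
def RealPos (P : ℂ → ℂ[X]) : Prop :=
  ∀ᶠ r : ℝ in r0, ∀ u : ℝ, 0 ≤ ((P r).eval (u : ℂ)).re ∧ ((P r).eval (u : ℂ)).im = 0

theorem poly_eq_of_real {F G : ℂ[X]} (h : ∀ u : ℝ, F.eval (u : ℂ) = G.eval (u : ℂ)) : F = G := by
  refine Polynomial.eq_of_infinite_eval_eq F G ?_
  refine Set.Infinite.mono (s := Set.range fun u : ℝ => (u : ℂ)) ?_ ?_
  · rintro _ ⟨u, rfl⟩
    exact h u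
  · exact Set.infinite_range_of_injective Complex.ofReal_injective

theorem selfconj_of_realPos {d : ℕ} {P : ℂ → ℂ[X]} (h : MF d P) (hP : RealPos P) :
    ∀ᶠ z in 𝓝 (0 : ℂ), P z = fstar P z := by
  have h1 : ∀ᶠ r : ℝ in r0, P r = fstar P r := by
    filter_upwards [hP] with r hr
    refine poly_eq_of_real fun u => ?_
    rw [eval_fstar]
    have e1 : star ((r : ℝ) : ℂ) = r := Complex.conj_ofReal r
    have e2 : star ((u : ℝ) : ℂ) = u := Complex.conj_ofReal u
    rw [e1, e2]
    exact (Complex.conj_eq_iff_im.2 (hr u).2).symm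
  refine h.eq_of_ne (mf_fstar h) ?_
  have h2 : ∀ i, ∀ᶠ z in 𝓝 (0 : ℂ), (P z).coeff i = (fstar P z).coeff i := by
    intro i
    refine ((h.an i).frequently_eq_iff_eventually_eq ((mf_fstar h).an i)).1 ?_
    refine tendsto_ofReal_r0.frequently (Filter.Eventually.frequently ?_)
    filter_upwards [h1] with r hr
    rw [← hr]
  have h3 : ∀ᶠ z in 𝓝 (0 : ℂ), ∀ i ∈ Finset.range (d + 1), (P z).coeff i = (fstar P z).coeff i :=
    (Finset.eventually_all _).2 fun i _ => h2 i
  refine (h3.filter_mono nhdsWithin_le_nhds).mono fun z hz => ?_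
  ext i
  by_cases hi : i < d + 1
  · exact hz i (Finset.mem_range.2 hi)
  · rw [coeff_eq_zero_of_natDegree_lt (by rw [h.deg]; omega),
      coeff_eq_zero_of_natDegree_lt (by rw [(mf_fstar h).deg]; omega)]

/-- A common root at points tending to `0` gives a common factor. -/
theorem common_factor {d k' : ℕ} {P' R : ℂ → ℂ[X]} {h' : ℂ → ℂ} (hP' : MF d P')
    (H' : IsBranch k' h') (hR : IsEqn k' h' R)
    (hfreq : ∃ᶠ z in l0, ∃ w, (R z).eval w = 0 ∧ (P' z).eval w = 0) :
    ∃ (e : ℕ) (P'' : ℂ → ℂ[X]), MF e P'' ∧ e + k' = d ∧ ∀ᶠ z in 𝓝 (0 : ℂ), P' z = R z * P'' z := by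
  classical
  obtain ⟨n, k, h, Q, hb, hq, hprod⟩ := exists_factorization d P' hP'
  obtain ⟨i, hi⟩ : ∃ i, k i = k' ∧ ∀ᶠ z in 𝓝 (0 : ℂ), Q i z = R z := by
    by_contra hcon
    push Not at hcon
    have h1 : ∀ i, ∀ᶠ z in l0, ∀ w, (Q i z).eval w = 0 → (R z).eval w ≠ 0 := by
      intro i
      rcases eqn_dichotomy (hb i) H' (hq i) hR with h2 | h2
      · exact absurd h2.2 (Filter.not_eventually.2 (hcon i h2.1))
      · exact h2
    have h2 := Filter.eventually_all.2 h1
    obtain ⟨z, ⟨w, hw1, hw2⟩, hz1, hz2⟩ :=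
      (hfreq.and_eventually (h2.and (hprod.filter_mono nhdsWithin_le_nhds))).exists
    rw [hz2, eval_prod, Finset.prod_eq_zero_iff] at hw2
    obtain ⟨i, -, hi⟩ := hw2
    exact hz1 i w hi hw1
  refine ⟨∑ j ∈ Finset.univ.erase i, k j, fun z => ∏ j ∈ Finset.univ.erase i, Q j z,
    mf_prod _ fun j _ => (hq j).mf, ?_, ?_⟩
  · have h1 := hprod.self_of_nhds
    have h2 := congrArg natDegree h1
    rw [hP'.deg, (mf_prod Finset.univ fun j _ => (hq j).mf).deg] at h2
    rw [h2, ← hi.1, Finset.sum_erase_add _ _ (Finset.mem_univ i)]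
  · filter_upwards [hprod, hi.2] with z h1 h2
    rw [h1, ← h2]
    exact (Finset.mul_prod_erase Finset.univ (fun j => Q j z) (Finset.mem_univ i)).symm

/-- A self-conjugate branch has real points. -/
theorem exists_real_root {k : ℕ} {h : ℂ → ℂ} {Q : ℂ → ℂ[X]} (H : IsBranch k h) (hQ : IsEqn k h Q)
    (hs : ∀ᶠ z in 𝓝 (0 : ℂ), Q z = fstar Q z) :
    ∃ᶠ r : ℝ in r0, ∃ u : ℝ, (Q r).eval (u : ℂ) = 0 := by
  classical
  -- `h^*(t) = h (η t)` for a root of unity `η`
  obtain ⟨η, hη, hη2⟩ : ∃ η ∈ μ k, ∀ᶠ t in 𝓝 (0 : ℂ), cstar h t = h (η * t) := by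
    have h1 : ∀ᶠ t in 𝓝 (0 : ℂ), ∏ η : μ k, (cstar h t - h (η * t)) = 0 := by
      filter_upwards [hQ.eval_eq, (eqn_fstar H.pos hQ).eval_eq,
        (Puiseux.tendsto_pow H.pos).eventually hs] with t e1 e2 e3
      have e4 := e2 (cstar h t)
      rw [← e3, e1] at e4
      rw [Finset.prod_coe_sort (μ k) fun η => (cstar h t - h (η * t)), e4]
      exact Finset.prod_eq_zero (one_mem_μ H.pos) (by rw [one_mul, sub_self])
    obtain ⟨η, -, hη⟩ := exists_zero_of_prod (s := Finset.univ)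
      (f := fun (η : μ k) t => cstar h t - h (η * t))
      (fun η => (analyticAt_cstar H.an).sub (analyticAt_comp_mul H.an _)) h1
    refine ⟨η, η.2, ?_⟩
    filter_upwards [hη] with t ht
    exact sub_eq_zero.1 ht
  rw [mem_μ H.pos] at hη
  obtain ⟨ω, hω⟩ := IsAlgClosed.exists_pow_nat_eq η (n := 2) (by norm_num)
  have hω0 : ω ≠ 0 := by
    rintro rfl
    rw [zero_pow two_ne_zero] at hω
    rw [← hω, zero_pow H.pos.ne'] at hη
    exact zero_ne_one hη
  have hωk : ω ^ k = 1 ∨ ω ^ k = -1 := by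
    rw [← mul_self_eq_one_iff, ← mul_pow, ← sq, hω, hη]
  obtain ⟨c, hc0, hc⟩ : ∃ c : ℝ, c ≠ 0 ∧ (c : ℂ) = ω ^ k := by
    rcases hωk with h1 | h1
    · exact ⟨1, one_ne_zero, by rw [h1]; simp⟩
    · exact ⟨-1, by norm_num, by rw [h1]; simp⟩
  have hnorm : ‖ω‖ = 1 := by
    have h1 : ‖ω‖ ^ k = 1 := by
      rw [← norm_pow]
      rcases hωk with h1 | h1 <;> rw [h1] <;> simp
    exact (pow_eq_one_iff_of_nonneg (norm_nonneg _) H.pos.ne').1 h1
  have hωs : η * star ω = ω := by
    have h1 : ω * star ω = 1 := by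
      have := Complex.mul_conj ω
      rw [Complex.normSq_eq_norm_sq, hnorm] at this
      simpa using this
    rw [← hω, sq, mul_assoc, h1, mul_one]
  have hcoe : ∀ r : ℝ, star ((r : ℝ) : ℂ) = r := fun r => Complex.conj_ofReal r
  have hreal : ∀ᶠ r : ℝ in r0, star (h (ω * r)) = h (ω * r) := by
    have t1 : Tendsto (fun r : ℝ => star ω * (r : ℂ)) r0 (𝓝 0) := by
      have h1 : Tendsto (fun t : ℂ => star ω * t) (𝓝 0) (𝓝 (star ω * 0)) :=
        (continuous_const.mul continuous_id).tendsto 0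
      rw [mul_zero] at h1
      exact h1.comp (tendsto_ofReal_r0.mono_right nhdsWithin_le_nhds)
    filter_upwards [t1.eventually hη2] with r hr
    have e1 : cstar h (star ω * r) = star (h (ω * r)) := by
      rw [cstar, star_mul, star_star, hcoe, mul_comm]
    rw [← e1, hr, ← mul_assoc, hωs]
  have hroot : ∀ᶠ r : ℝ in r0, (Q ((c * r ^ k : ℝ) : ℂ)).eval (h (ω * r)) = 0 := by
    have t1 : Tendsto (fun r : ℝ => ω * (r : ℂ)) r0 (𝓝 0) := by
      have h1 : Tendsto (fun t : ℂ => ω * t) (𝓝 0) (𝓝 (ω * 0)) :=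
        (continuous_const.mul continuous_id).tendsto 0
      rw [mul_zero] at h1
      exact h1.comp (tendsto_ofReal_r0.mono_right nhdsWithin_le_nhds)
    filter_upwards [t1.eventually hQ.eval_eq] with r hr
    have e1 : (((c * r ^ k : ℝ)) : ℂ) = (ω * r) ^ k := by
      rw [mul_pow]
      push_cast
      rw [hc]
    rw [e1, hr]
    exact Finset.prod_eq_zero (one_mem_μ H.pos) (by rw [one_mul, sub_self])
  have t3 : Tendsto (fun r : ℝ => c * r ^ k) r0 r0 := by
    refine tendsto_nhdsWithin_iff.2 ⟨?_, ?_⟩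
    · have h1 : Tendsto (fun r : ℝ => c * r ^ k) (𝓝 0) (𝓝 (c * 0 ^ k)) :=
        (continuous_const.mul (continuous_id.pow k)).tendsto 0
      rw [zero_pow H.pos.ne', mul_zero] at h1
      exact h1.mono_left nhdsWithin_le_nhds
    · filter_upwards [self_mem_nhdsWithin] with r hr
      exact mul_ne_zero hc0 (pow_ne_zero _ hr)
  refine t3.frequently (p := fun r : ℝ => ∃ u : ℝ, (Q r).eval (u : ℂ) = 0) ?_
  refine Filter.Eventually.frequently ?_
  filter_upwards [hreal, hroot] with r h1 h2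
  refine ⟨(h (ω * r)).re, ?_⟩
  have h3 : (((h (ω * r)).re : ℝ) : ℂ) = h (ω * r) := Complex.conj_eq_iff_re.1 h1
  rw [h3]
  exact h2

/-- a nonnegative polynomial has double real roots -/
theorem derivative_eq_zero {P : ℂ[X]}
    (hP : ∀ u : ℝ, 0 ≤ (P.eval (u : ℂ)).re ∧ (P.eval (u : ℂ)).im = 0) {u : ℝ}
    (hu : P.eval (u : ℂ) = 0) : (derivative P).eval (u : ℂ) = 0 := by
  have h1 : HasDerivAt (fun x : ℝ => P.eval (x : ℂ)) ((derivative P).eval (u : ℂ)) u :=
    (P.hasDerivAt (u : ℂ)).comp_ofReal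
  have h2 : HasDerivAt (fun x : ℝ => (P.eval (x : ℂ)).re) ((derivative P).eval (u : ℂ)).re u := by
    have := (Complex.reCLM.hasFDerivAt.comp_hasDerivAt u h1)
    exact this
  have h3 : HasDerivAt (fun x : ℝ => (P.eval (x : ℂ)).im) ((derivative P).eval (u : ℂ)).im u := by
    have := (Complex.imCLM.hasFDerivAt.comp_hasDerivAt u h1)
    exact this
  have h4 : IsLocalMin (fun x : ℝ => (P.eval (x : ℂ)).re) u := by
    refine Filter.Eventually.of_forall fun x => ?_
    change (P.eval (u : ℂ)).re ≤ (P.eval (x : ℂ)).re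
    rw [hu]
    exact (hP x).1
  have h5 : ((derivative P).eval (u : ℂ)).re = 0 := h4.hasDerivAt_eq_zero h2
  have h6 : ((derivative P).eval (u : ℂ)).im = 0 := by
    have h7 : HasDerivAt (fun x : ℝ => (P.eval (x : ℂ)).im) 0 u := by
      have h8 : (fun x : ℝ => (P.eval (x : ℂ)).im) = fun _ => 0 := by
        funext x
        exact (hP x).2
      rw [h8]
      exact hasDerivAt_const u (0 : ℝ)
    exact h3.unique h7
  exact Complex.ext h5 h6

/-- the branch polynomials have simple roots -/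
theorem eqn_separable {k : ℕ} {h : ℂ → ℂ} {Q : ℂ → ℂ[X]} (H : IsBranch k h) (hQ : IsEqn k h Q) :
    ∀ᶠ z in l0, (Q z).Separable := by
  refine eventually_ne_of_pow H.pos ?_
  filter_upwards [H.injOn, hQ.eq.filter_mono nhdsWithin_le_nhds] with t h1 h2
  rw [h2, separable_prod_X_sub_C_iff']
  intro x hx y hy hxy
  exact h1 hx hy hxy

/-- nonnegativity at the complement of the zeros of `q` -/
theorem nonneg_of_ne {F q : ℂ[X]} (hq : q ≠ 0)
    (h : ∀ u : ℝ, q.eval (u : ℂ) ≠ 0 → 0 ≤ (F.eval (u : ℂ)).re ∧ (F.eval (u : ℂ)).im = 0)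
    (u : ℝ) : 0 ≤ (F.eval (u : ℂ)).re ∧ (F.eval (u : ℂ)).im = 0 := by
  set S : Set ℝ := {u : ℝ | q.eval (u : ℂ) = 0} with hS
  have hfin : S.Finite := by
    have h1 : (Complex.ofReal ⁻¹' (q.roots.toFinset : Set ℂ)).Finite :=
      (Finset.finite_toSet _).preimage Complex.ofReal_injective.injOn
    refine h1.subset fun x hx => ?_
    simp only [Set.mem_preimage, Finset.mem_coe, Multiset.mem_toFinset]
    exact (mem_roots hq).2 hx
  have hd : Dense Sᶜ := hfin.countable.dense_compl ℝ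
  have hcl : IsClosed {u : ℝ | 0 ≤ (F.eval (u : ℂ)).re ∧ (F.eval (u : ℂ)).im = 0} := by
    have hc : Continuous fun u : ℝ => F.eval (u : ℂ) := F.continuous.comp Complex.continuous_ofReal
    exact (isClosed_le continuous_const (Complex.continuous_re.comp hc)).inter
      (isClosed_eq (Complex.continuous_im.comp hc) continuous_const)
  have h2 : Sᶜ ⊆ {u : ℝ | 0 ≤ (F.eval (u : ℂ)).re ∧ (F.eval (u : ℂ)).im = 0} := fun u hu => h u hu
  have h3 := hcl.closure_subset_iff.2 h2
  rw [hd.closure_eq] at h3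
  exact h3 (Set.mem_univ u)

/-- dividing by `Q Q^*` -/
theorem realPos_div {P Q P'' : ℂ → ℂ[X]} (hQ0 : ∀ z, Q z ≠ 0) (hP : RealPos P)
    (h : ∀ᶠ z in l0, P z = Q z * fstar Q z * P'' z) : RealPos P'' := by
  filter_upwards [hP, tendsto_ofReal_r0.eventually h] with r h1 h2 u
  refine nonneg_of_ne (hQ0 r) (fun u hu => ?_) u
  have h3 := h1 u
  have e1 : star ((r : ℝ) : ℂ) = r := Complex.conj_ofReal r
  have e2 : star ((u : ℝ) : ℂ) = u := Complex.conj_ofReal u
  have e3 : (Q r).eval (u : ℂ) * star ((Q r).eval (u : ℂ)) =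
      ((Complex.normSq ((Q r).eval (u : ℂ)) : ℝ) : ℂ) := Complex.mul_conj _
  rw [h2, eval_mul, eval_mul, eval_fstar, e1, e2, e3, Complex.re_ofReal_mul,
    Complex.im_ofReal_mul] at h3
  have h4 : 0 < Complex.normSq ((Q r).eval (u : ℂ)) := Complex.normSq_pos.2 hu
  exact ⟨nonneg_of_mul_nonneg_right h3.1 h4, (mul_eq_zero.1 h3.2).resolve_left h4.ne'⟩

/-- **Nonnegative families are norms.** -/
theorem family_norm (d : ℕ) : ∀ P : ℂ → ℂ[X], MF d P → RealPos P →
    ∃ (e : ℕ) (W : ℂ → ℂ[X]), MF e W ∧ ∀ᶠ z in 𝓝 (0 : ℂ), P z = W z * fstar W z := by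
  induction d using Nat.strong_induction_on with
  | _ d ih =>
  intro P hP hpos
  rcases Nat.eq_zero_or_pos d with hd | hd
  · refine ⟨0, fun _ => 1, ⟨fun _ => monic_one, fun _ => natDegree_one, AnC.one⟩,
      Filter.Eventually.of_forall fun z => ?_⟩
    have h1 : P z = 1 := (hP.monic z).natDegree_eq_zero.1 (by rw [hP.deg, hd])
    rw [h1, fstar, Polynomial.map_one, mul_one]
  obtain ⟨k, h, Q, P', hkd, hbr, hQ, hP', hmul⟩ := peel hd hP
  have hmul0 := hmul.filter_mono (nhdsWithin_le_nhds (s := {(0 : ℂ)}ᶜ))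
  obtain ⟨e, P'', hP'', hed, hPP⟩ : ∃ (e : ℕ) (P'' : ℂ → ℂ[X]), MF e P'' ∧ e + k = d - k ∧
      ∀ᶠ z in 𝓝 (0 : ℂ), P' z = fstar Q z * P'' z := by
    refine common_factor hP' (branch_cstar hbr) (eqn_fstar hbr.pos hQ) ?_
    rcases eqn_dichotomy hbr (branch_cstar hbr) hQ (eqn_fstar hbr.pos hQ) with hcase | hcase
    · -- self-conjugate
      have h1 := exists_real_root hbr hQ hcase.2
      refine tendsto_ofReal_r0.frequently ?_
      refine (h1.and_eventually ((tendsto_ofReal_r0.eventually (eqn_separable hbr hQ)).and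
        (hpos.and ((tendsto_ofReal_r0.eventually hmul0).and (tendsto_ofReal_r0.eventually
          (hcase.2.filter_mono nhdsWithin_le_nhds)))))).mono ?_
      rintro r ⟨⟨u, hu⟩, hsep, hp, hm, hs⟩
      refine ⟨u, by rw [← hs]; exact hu, ?_⟩
      have h2 : (P r).eval (u : ℂ) = 0 := by rw [hm, eval_mul, hu, zero_mul]
      have h3 := derivative_eq_zero hp h2
      rw [hm, derivative_mul, eval_add, eval_mul, eval_mul, hu, zero_mul, add_zero] at h3
      rcases mul_eq_zero.1 h3 with h4 | h4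
      · exfalso
        exact hsep.eval₂_derivative_ne_zero (RingHom.id ℂ) (x := (u : ℂ))
          (by rw [eval₂_id]; exact hu) (by rw [eval₂_id]; exact h4)
      · exact h4
    · -- disjoint
      refine Filter.Eventually.frequently ?_
      have hsc := (selfconj_of_realPos hP hpos).filter_mono
        (nhdsWithin_le_nhds (s := {(0 : ℂ)}ᶜ))
      filter_upwards [hcase, hsc, tendsto_star_l0.eventually hmul0, hmul0] with z h1 h2 h3 h4
      obtain ⟨w, hw⟩ := IsAlgClosed.exists_root (fstar Q z) (by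
        rw [degree_eq_natDegree ((eqn_fstar hbr.pos hQ).mf.monic z).ne_zero,
          (eqn_fstar hbr.pos hQ).mf.deg]
        exact_mod_cast hbr.pos.ne')
      refine ⟨w, hw, ?_⟩
      have h5 : (P z).eval w = 0 := by
        rw [h2, eval_fstar, h3, eval_mul, star_mul, ← eval_fstar Q, IsRoot.def.1 hw, mul_zero]
      rw [h4, eval_mul] at h5
      rcases mul_eq_zero.1 h5 with h6 | h6
      · exact absurd hw (h1 w h6)
      · exact h6
  have hall : ∀ᶠ z in 𝓝 (0 : ℂ), P z = Q z * fstar Q z * P'' z := by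
    filter_upwards [hmul, hPP] with z h1 h2
    rw [h1, h2, mul_assoc]
  have hpos'' : RealPos P'' := realPos_div (fun z => (hQ.mf.monic z).ne_zero) hpos
    (hall.filter_mono nhdsWithin_le_nhds)
  obtain ⟨e', W, hW, hWW⟩ := ih e (by have := hbr.pos; omega) P'' hP'' hpos''
  refine ⟨k + e', fun z => Q z * W z, mf_mul hQ.mf hW, ?_⟩
  filter_upwards [hall, hWW] with z h1 h2
  rw [h1, h2, fstar_mul]
  ring

end Vale.Agent.P256.H230
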