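import Vale.Agent.P256.H230.FRPoly
import Vale.Agent.P267.H823.Factor

/-!
# P256, helper230: the field of germs of meromorphic functions at `0`, with involution
-/

open Filter Topology Polynomial

namespace Vale.Agent.P256.H230

open Vale.Agent.P267.H823

/-- punctured neighbourhoods of `0` in the complex plane -/
noncomputable abbrev l0 : Filter ℂ := 𝓝[≠] (0 : ℂ)

/-- `f^*(z) = conj (f (conj z))` -/
noncomputable def cstar (f : ℂ → ℂ) : ℂ → ℂ := fun z => star (f (star z))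

theorem tendsto_star_l0 : Tendsto (star : ℂ → ℂ) l0 l0 := by
  refine tendsto_nhdsWithin_iff.2 ⟨?_, ?_⟩
  · have h : Tendsto (star : ℂ → ℂ) (𝓝 0) (𝓝 (star 0)) := continuous_star.tendsto 0
    rw [star_zero] at h
    exact h.mono_left nhdsWithin_le_nhds
  · filter_upwards [self_mem_nhdsWithin] with z hz
    exact fun h => hz (by simpa using h)

theorem tendsto_star_nhds : Tendsto (star : ℂ → ℂ) (𝓝 0) (𝓝 0) := by
  have h : Tendsto (star : ℂ → ℂ) (𝓝 0) (𝓝 (star 0)) := continuous_star.tendsto 0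
  rwa [star_zero] at h

theorem analyticAt_cstar {f : ℂ → ℂ} (hf : AnalyticAt ℂ f 0) : AnalyticAt ℂ (cstar f) 0 := by
  rw [Complex.analyticAt_iff_eventually_differentiableAt] at hf ⊢
  filter_upwards [tendsto_star_nhds.eventually hf] with z hz
  have h1 := hz.conj_conj
  have h2 : (starRingEnd ℂ) (star z) = z := star_star z
  rw [h2] at h1
  exact h1

theorem meromorphicAt_cstar {f : ℂ → ℂ} (hf : MeromorphicAt f 0) : MeromorphicAt (cstar f) 0 := by
  obtain ⟨n, hn⟩ := hf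
  refine ⟨n, ?_⟩
  have h1 := analyticAt_cstar hn
  have h2 : cstar (fun z => (z - 0) ^ n • f z) = fun z => (z - 0) ^ n • cstar f z := by
    funext z
    simp [cstar]
  rw [h2] at h1
  exact h1

@[simp] theorem cstar_cstar (f : ℂ → ℂ) : cstar (cstar f) = f := by
  funext z
  simp [cstar]

/-- germs of meromorphic functions -/
noncomputable def merSubring : Subring (Germ l0 ℂ) where
  carrier := {φ | ∃ f : ℂ → ℂ, MeromorphicAt f 0 ∧ (f : Germ l0 ℂ) = φ}
  mul_mem' := by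
    rintro _ _ ⟨f, hf, rfl⟩ ⟨g, hg, rfl⟩
    exact ⟨f * g, hf.mul hg, rfl⟩
  one_mem' := ⟨1, MeromorphicAt.const 1 0, rfl⟩
  add_mem' := by
    rintro _ _ ⟨f, hf, rfl⟩ ⟨g, hg, rfl⟩
    exact ⟨f + g, hf.add hg, rfl⟩
  zero_mem' := ⟨0, MeromorphicAt.const 0 0, rfl⟩
  neg_mem' := by
    rintro _ ⟨f, hf, rfl⟩
    exact ⟨-f, hf.neg, rfl⟩

/-- the field of germs -/
def MG : Type := ↥merSubring

noncomputable instance : CommRing MG := inferInstanceAs (CommRing ↥merSubring)

/-- the germ of a meromorphic function -/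
noncomputable def MG.mk (f : ℂ → ℂ) (hf : MeromorphicAt f 0) : MG := ⟨(f : Germ l0 ℂ), f, hf, rfl⟩

/-- a representative -/
noncomputable def MG.rep (φ : MG) : ℂ → ℂ := Classical.choose φ.2

theorem MG.mer (φ : MG) : MeromorphicAt φ.rep 0 := (Classical.choose_spec φ.2).1

theorem MG.coe_rep (φ : MG) : ((φ.rep : ℂ → ℂ) : Germ l0 ℂ) = φ.1 := (Classical.choose_spec φ.2).2

theorem MG.mk_rep (φ : MG) : MG.mk φ.rep φ.mer = φ := Subtype.ext φ.coe_rep

theorem MG.rep_mk {f : ℂ → ℂ} (hf : MeromorphicAt f 0) : (MG.mk f hf).rep =ᶠ[l0] f :=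
  Germ.coe_eq.1 (MG.coe_rep _)

theorem MG.ext_rep {φ ψ : MG} (h : φ.rep =ᶠ[l0] ψ.rep) : φ = ψ := by
  refine Subtype.ext ?_
  rw [← φ.coe_rep, ← ψ.coe_rep]
  exact Germ.coe_eq.2 h

theorem MG.eq_iff {φ ψ : MG} : φ = ψ ↔ φ.rep =ᶠ[l0] ψ.rep :=
  ⟨fun h => by rw [h], MG.ext_rep⟩

theorem MG.rep_add (φ ψ : MG) : (φ + ψ).rep =ᶠ[l0] φ.rep + ψ.rep := by
  refine Germ.coe_eq.1 ?_
  rw [MG.coe_rep, Germ.coe_add, MG.coe_rep, MG.coe_rep]
  rfl

theorem MG.rep_mul (φ ψ : MG) : (φ * ψ).rep =ᶠ[l0] φ.rep * ψ.rep := by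
  refine Germ.coe_eq.1 ?_
  rw [MG.coe_rep, Germ.coe_mul, MG.coe_rep, MG.coe_rep]
  rfl

theorem MG.rep_zero : (0 : MG).rep =ᶠ[l0] 0 := by
  refine Germ.coe_eq.1 ?_
  rw [MG.coe_rep]
  rfl

theorem MG.rep_one : (1 : MG).rep =ᶠ[l0] 1 := by
  refine Germ.coe_eq.1 ?_
  rw [MG.coe_rep]
  rfl

theorem MG.eventually_ne {φ : MG} (h : φ ≠ 0) : ∀ᶠ z in l0, φ.rep z ≠ 0 := by
  rcases φ.mer.eventually_eq_zero_or_eventually_ne_zero with h1 | h1
  · exfalso
    apply h
    refine MG.ext_rep ?_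
    filter_upwards [h1, MG.rep_zero] with z h2 h3
    rw [h2, h3]
    rfl
  · exact h1

theorem MG.isField : IsField MG where
  exists_pair_ne := ⟨0, 1, fun h => by
    have h1 := MG.eq_iff.1 h
    have h2 : ∀ᶠ z in l0, False := by
      filter_upwards [h1, MG.rep_zero, MG.rep_one] with z h2 h3 h4
      rw [h3, h4] at h2
      exact zero_ne_one h2
    exact h2.exists.elim fun _ h => h⟩
  mul_comm := mul_comm
  mul_inv_cancel := by
    intro φ hφ
    refine ⟨MG.mk φ.rep⁻¹ φ.mer.inv, MG.ext_rep ?_⟩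
    filter_upwards [MG.rep_mul φ (MG.mk φ.rep⁻¹ φ.mer.inv), MG.rep_mk φ.mer.inv,
      MG.eventually_ne hφ, MG.rep_one] with z h1 h2 h3 h4
    rw [h1, Pi.mul_apply, h2, h4, Pi.inv_apply, Pi.one_apply, mul_inv_cancel₀ h3]

noncomputable instance : Field MG := MG.isField.toField

theorem MG.rep_neg (φ : MG) : (-φ).rep =ᶠ[l0] -φ.rep := by
  have h := MG.rep_add φ (-φ)
  rw [add_neg_cancel] at h
  filter_upwards [h, MG.rep_zero] with z h1 h2
  rw [h2] at h1
  exact (neg_eq_of_add_eq_zero_right h1.symm).symm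

theorem MG.rep_sum {ι : Type*} (s : Finset ι) (f : ι → MG) :
    (∑ i ∈ s, f i).rep =ᶠ[l0] fun z => ∑ i ∈ s, (f i).rep z := by
  classical
  induction s using Finset.induction_on with
  | empty =>
    filter_upwards [MG.rep_zero] with z h
    simpa using h
  | insert i s hi ih =>
    rw [Finset.sum_insert hi]
    filter_upwards [ih, MG.rep_add (f i) (∑ i ∈ s, f i)] with z h1 h2
    rw [h2, Finset.sum_insert hi, Pi.add_apply, h1]

noncomputable instance : StarRing MG where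
  star φ := MG.mk (cstar φ.rep) (meromorphicAt_cstar φ.mer)
  star_involutive φ := by
    refine MG.ext_rep ?_
    have h1 := MG.rep_mk (meromorphicAt_cstar φ.mer)
    have h2 := MG.rep_mk (meromorphicAt_cstar (MG.mer (MG.mk (cstar φ.rep) (meromorphicAt_cstar φ.mer))))
    filter_upwards [tendsto_star_l0.eventually h1, h2] with z h3 h4
    rw [h4]
    simp only [cstar] at h3 ⊢
    rw [h3]
    simp
  star_mul φ ψ := by
    refine MG.ext_rep ?_
    filter_upwards [MG.rep_mk (meromorphicAt_cstar (φ * ψ).mer),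
      MG.rep_mul (MG.mk (cstar ψ.rep) (meromorphicAt_cstar ψ.mer))
        (MG.mk (cstar φ.rep) (meromorphicAt_cstar φ.mer)),
      MG.rep_mk (meromorphicAt_cstar φ.mer), MG.rep_mk (meromorphicAt_cstar ψ.mer),
      tendsto_star_l0.eventually (MG.rep_mul φ ψ)] with z h1 h2 h3 h4 h5
    rw [h1, h2, Pi.mul_apply, h3, h4]
    simp only [cstar]
    rw [h5, Pi.mul_apply, star_mul]
  star_add φ ψ := by
    refine MG.ext_rep ?_
    filter_upwards [MG.rep_mk (meromorphicAt_cstar (φ + ψ).mer),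
      MG.rep_add (MG.mk (cstar φ.rep) (meromorphicAt_cstar φ.mer))
        (MG.mk (cstar ψ.rep) (meromorphicAt_cstar ψ.mer)),
      MG.rep_mk (meromorphicAt_cstar φ.mer), MG.rep_mk (meromorphicAt_cstar ψ.mer),
      tendsto_star_l0.eventually (MG.rep_add φ ψ)] with z h1 h2 h3 h4 h5
    rw [h1, h2, Pi.add_apply, h3, h4]
    simp only [cstar]
    rw [h5, Pi.add_apply, star_add]

theorem MG.rep_star (φ : MG) : (star φ).rep =ᶠ[l0] cstar φ.rep :=
  MG.rep_mk (meromorphicAt_cstar φ.mer)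

/-! ### Real points -/

/-- small nonzero real numbers -/
noncomputable abbrev r0 : Filter ℝ := 𝓝[≠] (0 : ℝ)

theorem tendsto_ofReal_r0 : Tendsto (fun r : ℝ => (r : ℂ)) r0 l0 := by
  refine tendsto_nhdsWithin_iff.2 ⟨?_, ?_⟩
  · have h : Tendsto (fun r : ℝ => (r : ℂ)) (𝓝 0) (𝓝 ((0 : ℝ) : ℂ)) :=
      Complex.continuous_ofReal.tendsto 0
    rw [Complex.ofReal_zero] at h
    exact h.mono_left nhdsWithin_le_nhds
  · filter_upwards [self_mem_nhdsWithin] with z hz
    exact fun h => hz (by simpa using h)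

/-- identity theorem on the real line -/
theorem MG.eq_of_frequently {φ ψ : MG} (h : ∃ᶠ r : ℝ in r0, φ.rep r = ψ.rep r) : φ = ψ := by
  by_contra hne
  have h1 := MG.eventually_ne (sub_ne_zero.2 hne)
  have h2 := tendsto_ofReal_r0.eventually h1
  have h3 : ∀ᶠ r : ℝ in r0, (φ - ψ).rep r = φ.rep r - ψ.rep r := by
    have h4 : (φ - ψ).rep =ᶠ[l0] fun z => φ.rep z - ψ.rep z := by
      rw [sub_eq_add_neg]
      filter_upwards [MG.rep_add φ (-ψ), MG.rep_neg ψ] with z h5 h6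
      rw [h5, Pi.add_apply, h6, Pi.neg_apply, sub_eq_add_neg]
    exact tendsto_ofReal_r0.eventually h4
  obtain ⟨r, hr1, hr2, hr3⟩ := (h.and_eventually (h2.and h3)).exists
  rw [hr3, hr1, sub_self] at hr2
  exact hr2 rfl

theorem MG.rep_star_real (φ : MG) : ∀ᶠ r : ℝ in r0, (star φ).rep r = star (φ.rep r) := by
  filter_upwards [tendsto_ofReal_r0.eventually (MG.rep_star φ)] with r hr
  rw [hr]
  simp [cstar]

theorem MG.rep_norm_real (φ : MG) :
    ∀ᶠ r : ℝ in r0, (φ * star φ).rep r = ((Complex.normSq (φ.rep r) : ℝ) : ℂ) := by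
  filter_upwards [tendsto_ofReal_r0.eventually (MG.rep_mul φ (star φ)), MG.rep_star_real φ]
    with r h1 h2
  rw [h1, Pi.mul_apply, h2]
  exact Complex.mul_conj _

theorem MG.aniso : Aniso MG := by
  intro d a ha i
  refine MG.eq_of_frequently ?_
  refine Filter.Eventually.frequently ?_
  have h1 := tendsto_ofReal_r0.eventually (MG.rep_sum Finset.univ fun i => a i * star (a i))
  have h2 : ∀ᶠ r : ℝ in r0, ∀ i, (a i * star (a i)).rep r =
      ((Complex.normSq ((a i).rep r) : ℝ) : ℂ) :=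
    Filter.eventually_all.2 fun i => MG.rep_norm_real (a i)
  have h3 := tendsto_ofReal_r0.eventually MG.rep_zero
  rw [ha] at h1
  filter_upwards [h1, h2, h3] with r e1 e2 e3
  rw [e3, Pi.zero_apply] at e1 ⊢
  simp only [e2] at e1
  have e4 : ∑ i, Complex.normSq ((a i).rep r) = 0 := by exact_mod_cast e1.symm
  have e5 := (Finset.sum_eq_zero_iff_of_nonneg fun i _ => Complex.normSq_nonneg _).1 e4 i
    (Finset.mem_univ i)
  exact Complex.normSq_eq_zero.1 e5

end Vale.Agent.P256.H230
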