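import Vale.Agent.P256.H230.Norm

/-!
# P256, helper230: the subfield of algebraic (Nash) germs
-/

open Filter Topology Polynomial

namespace Vale.Agent.P256.H230

open Vale.Agent.P267.H823

/-- constant germs -/
noncomputable def MG.cst : ℂ →+* MG where
  toFun c := MG.mk (fun _ => c) (MeromorphicAt.const c 0)
  map_one' := Subtype.ext rfl
  map_mul' _ _ := Subtype.ext rfl
  map_zero' := Subtype.ext rfl
  map_add' _ _ := Subtype.ext rfl

theorem MG.rep_cst (c : ℂ) : (MG.cst c).rep =ᶠ[l0] fun _ => c :=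
  MG.rep_mk (MeromorphicAt.const c 0)

/-- polynomials in `s` as germs -/
noncomputable def iota : ℂ[X] →+* MG := eval₂RingHom MG.cst MG.s

theorem rep_iota (p : ℂ[X]) : (iota p).rep =ᶠ[l0] fun z => p.eval z := by
  induction p using Polynomial.induction_on' with
  | add p q hp hq =>
    rw [map_add]
    filter_upwards [MG.rep_add (iota p) (iota q), hp, hq] with z h1 h2 h3
    rw [h1, Pi.add_apply, h2, h3, eval_add]
  | monomial n a =>
    have h : iota (monomial n a) = MG.cst a * MG.s ^ n := by
      rw [iota, coe_eval₂RingHom, eval₂_monomial]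
    rw [h]
    filter_upwards [MG.rep_mul (MG.cst a) (MG.s ^ n), MG.rep_cst a, MG.rep_pow MG.s n, MG.rep_s]
      with z h1 h2 h3 h4
    rw [h1, Pi.mul_apply, h2, h3, h4, eval_monomial]

theorem iota_injective : Function.Injective iota := by
  rw [injective_iff_map_eq_zero]
  intro p hp
  by_contra hne
  have h1 := rep_iota p
  rw [hp] at h1
  have h2 : ∀ᶠ z in l0, p.eval z = 0 := by
    filter_upwards [h1, MG.rep_zero] with z h3 h4
    rw [← h3, h4]
    rfl
  have h3 : ∀ᶠ z in 𝓝 (0 : ℂ), p.eval z = 0 :=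
    (AnalyticAt.frequently_zero_iff_eventually_zero (AnalyticOnNhd.eval_polynomial p 0
      (Set.mem_univ _))).1 h2.frequently
  obtain ⟨U, hU1, hU2⟩ := Filter.eventually_iff_exists_mem.1 h3
  have h4 : Set.Infinite U := infinite_of_mem_nhds 0 hU1
  exact hne (Polynomial.eq_zero_of_infinite_isRoot p (h4.mono fun z hz => hU2 z hz))

noncomputable scoped instance algMG : Algebra ℂ[X] MG := iota.toAlgebra

theorem algebraMap_eq : (algebraMap ℂ[X] MG) = iota := rfl

instance : FaithfulSMul ℂ[X] MG :=
  (faithfulSMul_iff_algebraMap_injective ℂ[X] MG).2 iota_injective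

theorem cst_star (c : ℂ) : star (MG.cst c) = MG.cst (star c) := by
  refine MG.eq_of_frequently (Filter.Eventually.frequently ?_)
  filter_upwards [MG.rep_star_real (MG.cst c), tendsto_ofReal_r0.eventually (MG.rep_cst c),
    tendsto_ofReal_r0.eventually (MG.rep_cst (star c))] with r h1 h2 h3
  rw [h1, h2, h3]

theorem iota_star (p : ℂ[X]) : star (iota p) = iota (p.map (starRingEnd ℂ)) := by
  induction p using Polynomial.induction_on' with
  | add p q hp hq => rw [map_add, star_add, hp, hq, Polynomial.map_add, map_add]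
  | monomial n a =>
    have h : ∀ a : ℂ, iota (monomial n a) = MG.cst a * MG.s ^ n := fun a => by
      rw [iota, coe_eval₂RingHom, eval₂_monomial]
    rw [map_monomial, h, h, star_mul, star_pow, MG.star_s, cst_star, mul_comm]
    rfl

theorem isAlgebraic_star {φ : MG} (h : IsAlgebraic ℂ[X] φ) : IsAlgebraic ℂ[X] (star φ) := by
  obtain ⟨P, hP, hφ⟩ := h
  refine ⟨P.map (mapRingHom (starRingEnd ℂ)), ?_, ?_⟩
  · intro h0
    apply hP
    have hinj : Function.Injective (mapRingHom (starRingEnd ℂ)) :=
      Polynomial.map_injective _ (starRingEnd ℂ).injective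
    exact (Polynomial.map_eq_zero_iff hinj).1 h0
  · rw [aeval_def, algebraMap_eq, eval₂_map]
    have h1 : iota.comp (mapRingHom (starRingEnd ℂ)) = (starRingEnd MG).comp iota :=
      RingHom.ext fun p => (iota_star p).symm
    have h2 := hom_eval₂ P iota (starRingEnd MG) φ
    rw [aeval_def, algebraMap_eq] at hφ
    rw [h1]
    rw [hφ, map_zero] at h2
    exact h2.symm

/-- the subfield of algebraic germs -/
noncomputable def nashSubfield : Subfield MG where
  carrier := {φ | IsAlgebraic ℂ[X] φ}
  mul_mem' ha hb := ha.mul hb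
  one_mem' := isAlgebraic_one
  add_mem' ha hb := ha.add hb
  zero_mem' := isAlgebraic_zero
  neg_mem' ha := ha.neg
  inv_mem' _ ha := ha.inv

/-- the field of algebraic germs -/
def NG : Type := ↥nashSubfield

noncomputable instance : Field NG := inferInstanceAs (Field ↥nashSubfield)

/-- the inclusion -/
noncomputable def inj : NG →+* MG := nashSubfield.subtype

theorem inj_injective : Function.Injective inj := Subtype.val_injective

theorem inj_alg (φ : NG) : IsAlgebraic ℂ[X] (inj φ) := φ.2

theorem exists_inj {φ : MG} (h : IsAlgebraic ℂ[X] φ) : ∃ ψ : NG, inj ψ = φ := ⟨⟨φ, h⟩, rfl⟩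

noncomputable instance : StarRing NG where
  star φ := ⟨star φ.1, isAlgebraic_star φ.2⟩
  star_involutive φ := Subtype.ext (star_star φ.1)
  star_mul φ ψ := Subtype.ext (star_mul φ.1 ψ.1)
  star_add φ ψ := Subtype.ext (star_add φ.1 ψ.1)

theorem inj_star (φ : NG) : inj (star φ) = star (inj φ) := rfl

theorem NG.aniso : Aniso NG := by
  intro d a ha i
  have h1 : ∑ i, inj (a i) * star (inj (a i)) = 0 := by
    have := congrArg inj ha
    rw [map_zero, map_sum] at this
    rw [← this]
    exact Finset.sum_congr rfl fun i _ => by rw [map_mul, inj_star]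
  have h2 := MG.aniso d (fun i => inj (a i)) h1 i
  exact inj_injective (by rw [h2, map_zero])

/-- the inclusion on polynomials -/
noncomputable def injX : NG[X] →+* MG[X] := mapRingHom inj

theorem injX_apply (P : NG[X]) : injX P = P.map inj := rfl

theorem injX_injective : Function.Injective injX := Polynomial.map_injective _ inj_injective

theorem injX_star (P : NG[X]) : injX (star P) = star (injX P) := by
  ext i
  rw [injX_apply, injX_apply, coeff_map, coeff_star, coeff_star, coeff_map, inj_star]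

/-- algebraic over algebraic is algebraic -/
theorem alg_trans {φ : MG} {P : NG[X]} (hP : P ≠ 0) (h : (P.map inj).eval φ = 0) :
    IsAlgebraic ℂ[X] φ := by
  let S : Subalgebra ℂ[X] MG := Subalgebra.algebraicClosure ℂ[X] MG
  have hS : Algebra.IsAlgebraic ℂ[X] S := inferInstance
  let e : NG →+* S :=
    { toFun := fun ψ => ⟨inj ψ, inj_alg ψ⟩
      map_one' := rfl
      map_mul' := fun _ _ => rfl
      map_zero' := rfl
      map_add' := fun _ _ => rfl }
  have he : Function.Injective e := fun a b hab => inj_injective (congrArg Subtype.val hab)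
  have h1 : IsAlgebraic S φ := by
    refine ⟨P.map e, (Polynomial.map_ne_zero_iff he).2 hP, ?_⟩
    rw [aeval_def, eval₂_map]
    rw [eval_map] at h
    exact h
  exact h1.restrictScalars ℂ[X]

theorem exists_injX {Q : MG[X]} (h : ∀ i, IsAlgebraic ℂ[X] (Q.coeff i)) :
    ∃ Q1 : NG[X], injX Q1 = Q := by
  have h1 : Q ∈ lifts inj := by
    rw [lifts_iff_coeff_lifts]
    intro i
    obtain ⟨ψ, hψ⟩ := exists_inj (h i)
    exact ⟨ψ, hψ⟩
  obtain ⟨Q1, hQ1⟩ := (mem_lifts _).1 h1
  exact ⟨Q1, hQ1⟩

/-- **Descent of norms** to algebraic germs. -/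
theorem descent {P : NG[X]} {w : MG[X]} (h : injX P = w * star w) :
    ∃ w0 : NG[X], P = w0 * star w0 := by
  by_cases hP : P = 0
  · exact ⟨0, by rw [hP, zero_mul]⟩
  have hw : w ≠ 0 := by
    rintro rfl
    rw [zero_mul] at h
    exact hP (injX_injective (by rw [h, map_zero]))
  set c := P.leadingCoeff with hc
  have hc0 : c ≠ 0 := leadingCoeff_ne_zero.2 hP
  set γ := w.leadingCoeff with hγ
  have hγ0 : γ ≠ 0 := leadingCoeff_ne_zero.2 hw
  have hlcs : (star w).leadingCoeff = star γ := by
    rw [leadingCoeff, natDegree_star, coeff_star]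
    rfl
  have hcγ : inj c = γ * star γ := by
    have h1 := congrArg leadingCoeff h
    rw [leadingCoeff_mul, hlcs, injX_apply, leadingCoeff_map] at h1
    exact h1
  obtain ⟨γ0, hγ00, hγ0s⟩ := exists_sqrt (c := inj c) (fun h0 => hc0 (inj_injective (by
    rw [h0, map_zero]))) (by
      rw [hcγ]
      filter_upwards [MG.rep_norm_real γ] with r hr
      rw [hr, Complex.ofReal_re, Complex.ofReal_im]
      exact ⟨Complex.normSq_nonneg _, rfl⟩)
  obtain ⟨γ1, hγ1⟩ := exists_inj (φ := γ0) (alg_trans (P := X ^ 2 - C c)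
    (X_pow_sub_C_ne_zero two_pos c) (by
      rw [Polynomial.map_sub, Polynomial.map_pow, map_X, map_C, eval_sub, eval_pow, eval_X, eval_C,
        sq, hγ00, sub_self]))
  -- the monic part
  set wt : MG[X] := C γ⁻¹ * w with hwt
  have hwtm : wt.Monic := by
    rw [Monic, hwt, leadingCoeff_mul, leadingCoeff_C, ← hγ, inv_mul_cancel₀ hγ0]
  have hP1m : (C c⁻¹ * P).Monic := by
    rw [Monic, leadingCoeff_mul, leadingCoeff_C, ← hc, inv_mul_cancel₀ hc0]
  let _ : Algebra NG MG := inj.toAlgebra
  have hdvd : wt ∣ (C c⁻¹ * P).map (algebraMap NG MG) := by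
    have h1 : (C c⁻¹ * P).map (algebraMap NG MG) = C (inj c⁻¹) * (w * star w) := by
      rw [← h, Polynomial.map_mul, map_C]
      rfl
    rw [h1, hwt]
    have h2 : w = C γ * (C γ⁻¹ * w) := by
      rw [← mul_assoc, ← C_mul, mul_inv_cancel₀ hγ0, C_1, one_mul]
    refine Dvd.intro (C (inj c⁻¹) * C γ * star w) ?_
    conv_rhs => rw [h2]
    have h3 : star (C γ * (C γ⁻¹ * w)) = star w := by rw [← h2]
    rw [h3]
    ring
  have hlift := integralClosure.mem_lifts_of_monic_of_dvd_map MG hP1m hwtm hdvd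
  have hwta : ∀ i, IsAlgebraic ℂ[X] (wt.coeff i) := by
    intro i
    rw [lifts_iff_coeff_lifts] at hlift
    obtain ⟨y, hy⟩ := hlift i
    obtain ⟨Q, hQm, hQ⟩ := y.2
    rw [← hy]
    refine alg_trans hQm.ne_zero ?_
    rw [eval_map]
    exact hQ
  obtain ⟨w1, hw1⟩ := exists_injX hwta
  refine ⟨C γ1 * w1, injX_injective ?_⟩
  rw [map_mul, injX_star, map_mul, hw1, h, hwt]
  have h4 : injX (C γ1) = C γ0 := by rw [injX_apply, map_C, hγ1]
  rw [h4]
  simp only [star_mul, star_C, hγ0s]
  have h5 : (C γ0 * C γ0 : MG[X]) = C γ * C (star γ) := by rw [← C_mul, ← C_mul, hγ00, hcγ]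
  have h6 : (C γ * C γ⁻¹ : MG[X]) = 1 := by rw [← C_mul, mul_inv_cancel₀ hγ0, C_1]
  have h7 : (C (star γ) * C (star γ⁻¹) : MG[X]) = 1 := by
    rw [← C_mul, ← star_mul, inv_mul_cancel₀ hγ0, star_one, C_1]
  calc w * star w = (C γ * C γ⁻¹) * (C (star γ) * C (star γ⁻¹)) * (w * star w) := by
        rw [h6, h7, one_mul, one_mul]
    _ = (C γ * C (star γ)) * (C γ⁻¹ * C (star γ⁻¹)) * (w * star w) := by ring
    _ = (C γ0 * C γ0) * (C γ⁻¹ * C (star γ⁻¹)) * (w * star w) := by rw [h5]
    _ = _ := by ring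

theorem NG.exists_norm {F : NG[X]} (hF : GPos (injX F)) : ∃ w : NG[X], F = w * star w := by
  obtain ⟨w, hw⟩ := Vale.Agent.P256.H230.exists_norm hF
  exact descent hw

theorem NG.sumNorm : SumNorm NG[X] := by
  intro a b
  refine NG.exists_norm ?_
  rw [map_add, map_mul, map_mul, injX_star, injX_star]
  exact gPos_add (gPos_norm _) (gPos_norm _)

end Vale.Agent.P256.H230
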