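import Vale.Agent.P256.H230.Fam
import Vale.Agent.P256.H230.Dict

/-!
# P256, helper230: nonnegative polynomials over the field of germs are norms
-/

open Filter Topology Polynomial

namespace Vale.Agent.P256.H230

open Vale.Agent.P267.H823

/-- nonnegative at real points -/
def GPos (F : MG[X]) : Prop := RealPos (sp F)

theorem Rep.realPos {F : MG[X]} {W : ℂ → ℂ[X]} (h : Rep F W) (hF : GPos F) : RealPos W := by
  filter_upwards [hF, tendsto_ofReal_r0.eventually ((rep_sp F).eq h)] with r h1 h2 u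
  rw [← h2]
  exact h1 u

theorem gPos_of_rep {F : MG[X]} {W : ℂ → ℂ[X]} (h : Rep F W) (hW : RealPos W) : GPos F := by
  filter_upwards [hW, tendsto_ofReal_r0.eventually ((rep_sp F).eq h)] with r h1 h2 u
  rw [h2]
  exact h1 u

/-- the leading coefficient of a polynomial which is nonnegative on the real line -/
theorem leadingCoeff_pos {F : ℂ[X]} {d : ℕ} (hd : F.natDegree ≤ d)
    (h : ∀ u : ℝ, 0 ≤ (F.eval (u : ℂ)).re ∧ (F.eval (u : ℂ)).im = 0) :
    0 ≤ (F.coeff d).re ∧ (F.coeff d).im = 0 := by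
  have hcomp : ∀ (L : ℂ →ₗ[ℝ] ℝ), ∀ u : ℝ,
      (∑ i ∈ Finset.range (d + 1), C (L (F.coeff i)) * X ^ i : ℝ[X]).eval u = L (F.eval (u : ℂ)) := by
    intro L u
    rw [eval_eq_sum_range' (Nat.lt_succ_of_le hd), map_sum, eval_finsetSum]
    refine Finset.sum_congr rfl fun i _ => ?_
    have h1 : F.coeff i * (u : ℂ) ^ i = (u ^ i : ℝ) • F.coeff i := by
      rw [Complex.real_smul]
      push_cast
      ring
    rw [h1, map_smul, smul_eq_mul, eval_mul, eval_C, eval_pow, eval_X, mul_comm]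
  have hco : ∀ (L : ℂ →ₗ[ℝ] ℝ) (k : ℕ),
      (∑ i ∈ Finset.range (d + 1), C (L (F.coeff i)) * X ^ i : ℝ[X]).coeff k =
        if k < d + 1 then L (F.coeff k) else 0 := by
    intro L k
    rw [finsetSum_coeff]
    simp only [coeff_C_mul_X_pow]
    rw [Finset.sum_ite_eq]
    simp only [Finset.mem_range]
  constructor
  · by_contra hneg
    push Not at hneg
    set G : ℝ[X] := ∑ i ∈ Finset.range (d + 1), C (Complex.reLm (F.coeff i)) * X ^ i with hG
    have h1 : G.coeff d = (F.coeff d).re := by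
      rw [hG, hco, if_pos (Nat.lt_succ_self d)]
      rfl
    have h2 : ∀ u, 0 ≤ G.eval u := fun u => by
      rw [hG, hcomp]
      exact (h u).1
    have h3 : G.natDegree = d := by
      refine le_antisymm ?_ (le_natDegree_of_ne_zero (by rw [h1]; exact hneg.ne))
      rw [natDegree_le_iff_coeff_eq_zero]
      intro k hk
      rw [hG, hco, if_neg (by omega)]
    rcases Nat.eq_zero_or_pos d with hd0 | hd0
    · have h4 := eq_C_of_natDegree_eq_zero (h3.trans hd0)
      have h5 := h2 0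
      rw [h4, eval_C, ← hd0, h1] at h5
      exact absurd h5 (not_le.2 hneg)
    · have h4 : 0 < G.degree := natDegree_pos_iff_degree_pos.1 (by omega)
      have h5 : G.leadingCoeff ≤ 0 := by
        rw [leadingCoeff, h3, h1]
        exact hneg.le
      have h6 := Polynomial.tendsto_atBot_of_leadingCoeff_nonpos G h4 h5
      obtain ⟨u, hu⟩ := (h6.eventually (eventually_lt_atBot 0)).exists
      exact absurd (h2 u) (not_le.2 hu)
  · set G : ℝ[X] := ∑ i ∈ Finset.range (d + 1), C (Complex.imLm (F.coeff i)) * X ^ i with hG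
    have h1 : G.coeff d = (F.coeff d).im := by
      rw [hG, hco, if_pos (Nat.lt_succ_self d)]
      rfl
    have h2 : G = 0 := by
      refine Polynomial.funext fun u => ?_
      rw [hG, hcomp, eval_zero]
      exact (h u).2
    rw [← h1, h2, coeff_zero]

/-- a positive germ is a square of a self-conjugate germ -/
theorem exists_sqrt {c : MG} (hc0 : c ≠ 0)
    (hc : ∀ᶠ r : ℝ in r0, 0 ≤ (c.rep r).re ∧ (c.rep r).im = 0) :
    ∃ γ : MG, γ * γ = c ∧ star γ = γ := by
  obtain ⟨n, hn⟩ : ∃ n : ℤ, meromorphicOrderAt c.rep 0 = n := by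
    have h1 : meromorphicOrderAt c.rep 0 ≠ ⊤ :=
      (meromorphicOrderAt_ne_top_iff_eventually_ne_zero c.mer).2 (MG.eventually_ne hc0)
    exact ⟨(meromorphicOrderAt c.rep 0).untop h1, (WithTop.coe_untop _ h1).symm⟩
  obtain ⟨g, hg, hg0, hcg⟩ := (meromorphicOrderAt_eq_int_iff c.mer).1 hn
  simp only [sub_zero, smul_eq_mul] at hcg
  -- real points
  have hne := tendsto_ofReal_r0.eventually (MG.eventually_ne hc0)
  have hcr : ∀ᶠ r : ℝ in r0, 0 < (c.rep r).re ∧ (c.rep r).im = 0 := by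
    filter_upwards [hc, hne] with r h1 h2
    refine ⟨lt_of_le_of_ne h1.1 fun h => h2 (Complex.ext h.symm h1.2), h1.2⟩
  have hgr : ∀ᶠ r : ℝ in r0, 0 < r ^ n * (g r).re ∧ (g r).im = 0 := by
    filter_upwards [hcr, tendsto_ofReal_r0.eventually hcg, self_mem_nhdsWithin] with r h1 h2 h3
    have e1 : ((r : ℂ)) ^ n = ((r ^ n : ℝ) : ℂ) := by push_cast; rfl
    rw [h2, e1, Complex.re_ofReal_mul, Complex.im_ofReal_mul] at h1
    exact ⟨h1.1, (mul_eq_zero.1 h1.2).resolve_left (zpow_ne_zero _ h3)⟩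
  have hlim : Tendsto (fun r : ℝ => g r) r0 (𝓝 (g 0)) :=
    hg.continuousAt.tendsto.comp (tendsto_ofReal_r0.mono_right nhdsWithin_le_nhds)
  have him : (g 0).im = 0 := by
    have h1 := (Complex.continuous_im.tendsto _).comp hlim
    exact tendsto_nhds_unique_of_eventuallyEq h1 (tendsto_const_nhds (x := (0 : ℝ)))
      (by filter_upwards [hgr] with r hr; exact hr.2)
  have hre : Tendsto (fun r : ℝ => (g r).re) r0 (𝓝 (g 0).re) :=
    (Complex.continuous_re.tendsto _).comp hlim
  have hpos_side : 𝓝[>] (0 : ℝ) ≤ r0 := nhdsWithin_mono _ fun x hx => ne_of_gt hx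
  have hneg_side : 𝓝[<] (0 : ℝ) ≤ r0 := nhdsWithin_mono _ fun x hx => ne_of_lt hx
  have hre0 : 0 ≤ (g 0).re := by
    refine ge_of_tendsto (hre.mono_left hpos_side) ?_
    filter_upwards [hgr.filter_mono hpos_side, self_mem_nhdsWithin] with r h1 h2
    have h3 : (0 : ℝ) < r ^ n := zpow_pos h2 n
    exact ((mul_pos_iff_of_pos_left h3).1 h1.1).le
  have hrepos : 0 < (g 0).re := lt_of_le_of_ne hre0 fun h => hg0 (Complex.ext h.symm him)
  have hgpos : ∀ᶠ r : ℝ in r0, 0 < (g r).re := hre.eventually (lt_mem_nhds hrepos)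
  -- the order is even
  obtain ⟨m, hm⟩ : ∃ m : ℤ, n = m + m := by
    rcases Int.even_or_odd n with h1 | h1
    · exact h1
    exfalso
    obtain ⟨r, h2, h3, h4⟩ := ((hgr.filter_mono hneg_side).and ((hgpos.filter_mono hneg_side).and
      self_mem_nhdsWithin)).exists
    have h5 : r ^ n < 0 := h1.zpow_neg h4
    exact absurd h2.1 (not_lt.2 (mul_nonpos_of_nonpos_of_nonneg h5.le h3.le))
  -- the square root
  set s : ℂ → ℂ := fun z => Complex.exp (Complex.log (g z) / 2) with hs
  have hsan : AnalyticAt ℂ s 0 := by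
    have h1 : AnalyticAt ℂ (fun z => Complex.log (g z)) 0 :=
      hg.clog (Complex.mem_slitPlane_iff.2 (Or.inl hrepos))
    exact (h1.div_const).cexp
  have hss : ∀ᶠ z in l0, s z * s z = g z := by
    have h1 : ∀ᶠ z in 𝓝 (0 : ℂ), g z ≠ 0 := hg.continuousAt.eventually_ne hg0
    filter_upwards [h1.filter_mono nhdsWithin_le_nhds] with z hz
    rw [hs]
    simp only
    rw [← Complex.exp_add, add_halves, Complex.exp_log hz]
  have hmer : MeromorphicAt (fun z : ℂ => z ^ m * s z) 0 := by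
    have h1 : MeromorphicAt (fun z : ℂ => z ^ m) 0 := (MeromorphicAt.id 0).fun_zpow m
    exact h1.fun_mul hsan.meromorphicAt
  refine ⟨MG.mk _ hmer, ?_, ?_⟩
  · refine MG.ext_rep ?_
    filter_upwards [MG.rep_mul (MG.mk _ hmer) (MG.mk _ hmer), MG.rep_mk hmer, hcg, hss,
      self_mem_nhdsWithin] with z h1 h2 h3 h4 h5
    rw [h1, Pi.mul_apply, h2, h3, ← h4, hm, zpow_add₀ h5]
    ring
  · refine MG.eq_of_frequently (Filter.Eventually.frequently ?_)
    filter_upwards [MG.rep_star_real (MG.mk _ hmer), tendsto_ofReal_r0.eventually (MG.rep_mk hmer),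
      hgr, hgpos] with r h1 h2 h3 h4
    rw [h1, h2]
    have e1 : g r = (((g r).re : ℝ) : ℂ) := Complex.ext rfl (by simpa using h3.2)
    have e2 : s r = ((Real.exp (Real.log (g r).re / 2) : ℝ) : ℂ) := by
      rw [hs]
      simp only
      rw [e1, ← Complex.ofReal_log h4.le]
      push_cast
      simp
    rw [e2]
    have e3 : ((r : ℂ)) ^ m * ((Real.exp (Real.log (g r).re / 2) : ℝ) : ℂ) =
        (((r ^ m * Real.exp (Real.log (g r).re / 2)) : ℝ) : ℂ) := by push_cast; rfl
    rw [e3]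
    exact Complex.conj_ofReal _

/-! ### Scaling -/

/-- the coordinate germ -/
noncomputable def MG.s : MG := MG.mk (fun z => z) (MeromorphicAt.id 0)

theorem MG.rep_s : MG.s.rep =ᶠ[l0] fun z => z := MG.rep_mk _

theorem MG.s_ne_zero : MG.s ≠ 0 := by
  intro h
  have h1 := MG.eq_iff.1 h
  obtain ⟨z, h2, h3, h4, h5⟩ := ((h1.and (MG.rep_s.and (MG.rep_zero.and
    (self_mem_nhdsWithin (a := (0 : ℂ)) (s := {0}ᶜ))))).exists)
  rw [h3, h4] at h2
  exact h5 h2

theorem MG.star_s : star MG.s = MG.s := by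
  refine MG.eq_of_frequently (Filter.Eventually.frequently ?_)
  filter_upwards [MG.rep_star_real MG.s, tendsto_ofReal_r0.eventually MG.rep_s] with r h1 h2
  rw [h1, h2]
  exact Complex.conj_ofReal r

theorem MG.rep_pow (φ : MG) (k : ℕ) : (φ ^ k).rep =ᶠ[l0] fun z => φ.rep z ^ k := by
  induction k with
  | zero =>
    filter_upwards [MG.rep_one] with z h
    rw [pow_zero, h, pow_zero]
    rfl
  | succ k ih =>
    filter_upwards [ih, MG.rep_mul (φ ^ k) φ] with z h1 h2
    rw [pow_succ, h2, Pi.mul_apply, h1, pow_succ]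

theorem MG.rep_inv (φ : MG) : (φ⁻¹).rep =ᶠ[l0] fun z => (φ.rep z)⁻¹ := by
  by_cases h : φ = 0
  · subst h
    rw [inv_zero]
    filter_upwards [MG.rep_zero] with z h
    rw [h]
    simp
  · have h1 := MG.rep_mul φ φ⁻¹
    rw [mul_inv_cancel₀ h] at h1
    filter_upwards [h1, MG.rep_one, MG.eventually_ne h] with z h2 h3 h4
    rw [h3, Pi.one_apply, Pi.mul_apply] at h2
    exact (inv_eq_of_mul_eq_one_right h2.symm).symm

theorem star_scaleRoots (w : MG[X]) {a : MG} (ha : star a = a) :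
    star (w.scaleRoots a) = (star w).scaleRoots a := by
  ext i
  rw [coeff_star, coeff_scaleRoots, coeff_scaleRoots, star_mul, star_pow, ha, natDegree_star,
    coeff_star, mul_comm]

/-- a monic polynomial with analytic coefficients -/
theorem exists_mf {P : MG[X]} (hP : P.Monic) (g : ℕ → ℂ → ℂ)
    (hg : ∀ i, i < P.natDegree → AnalyticAt ℂ (g i) 0 ∧ (P.coeff i).rep =ᶠ[l0] g i) :
    ∃ W, MF P.natDegree W ∧ Rep P W := by
  set d := P.natDegree with hd
  refine ⟨fun z => hmp d (fun i => g i z), ⟨fun z => hmp_monic _ _, fun z => hmp_natDegree _ _,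
    fun i => ?_⟩, ?_⟩
  · simp only [hmp_coeff]
    refine analyticAt_const.add ?_
    have h2 : AnalyticAt ℂ (fun z => fun i : Fin d => g i z) 0 := by
      rw [analyticAt_pi_iff]
      exact fun i => (hg i i.2).1
    exact ((hcf d i).analyticAt _).comp h2
  · have h1 : ∀ᶠ z in l0, ∀ i : Fin d, (P.coeff i).rep z = g i z :=
      Filter.eventually_all.2 fun i => (hg i i.2).2
    filter_upwards [h1, MG.rep_zero, MG.rep_one] with z h2 h3 h4 i
    rcases lt_trichotomy i d with h | h | h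
    · have h5 : (hmp d (fun i : Fin d => g i z)).coeff i = g i z := Puiseux.coeff_mk _ ⟨i, h⟩
      rw [h5, ← h2 ⟨i, h⟩]
    · subst h
      have h5 := (hmp_monic d (fun i : Fin d => g i z)).coeff_natDegree
      rw [hmp_natDegree] at h5
      rw [h5, hP.coeff_natDegree, h4]
      rfl
    · rw [coeff_eq_zero_of_natDegree_lt (by rw [hmp_natDegree]; exact h),
        coeff_eq_zero_of_natDegree_lt h, h3]
      rfl

theorem natDegree_sp_le (F : MG[X]) (z : ℂ) : (sp F z).natDegree ≤ F.natDegree := by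
  refine natDegree_sum_le_of_forall_le _ _ fun i hi => ?_
  refine (natDegree_C_mul_X_pow_le _ _).trans ?_
  rw [Finset.mem_range] at hi
  omega

/-- **A polynomial over the field of germs which is nonnegative at real points is a norm.** -/
theorem exists_norm {F : MG[X]} (hF : GPos F) : ∃ w : MG[X], F = w * star w := by
  by_cases hF0 : F = 0
  · exact ⟨0, by rw [hF0, zero_mul]⟩
  set d := F.natDegree with hd
  set c := F.coeff d with hcdef
  have hc0 : c ≠ 0 := by
    rw [hcdef, hd, coeff_natDegree]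
    exact leadingCoeff_ne_zero.2 hF0
  have hcpos : ∀ᶠ r : ℝ in r0, 0 ≤ (c.rep r).re ∧ (c.rep r).im = 0 := by
    filter_upwards [hF, tendsto_ofReal_r0.eventually (rep_sp F)] with r h1 h2
    have h3 := leadingCoeff_pos (natDegree_sp_le F r) h1
    rw [h2] at h3
    exact h3
  obtain ⟨γ, hγ, hγs⟩ := exists_sqrt hc0 hcpos
  -- clearing the poles
  have hmer : ∀ i, ∃ n : ℕ, AnalyticAt ℂ (fun z => z ^ n * (c⁻¹ * F.coeff i).rep z) 0 := by
    intro i
    obtain ⟨n, hn⟩ := (c⁻¹ * F.coeff i).mer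
    refine ⟨n, ?_⟩
    simp only [sub_zero, smul_eq_mul] at hn
    exact hn
  choose n hn using hmer
  set M := ∑ i ∈ Finset.range d, n i with hM
  set N := 2 * M with hN
  have hnN : ∀ i, i < d → n i ≤ N * (d - i) := by
    intro i hi
    have h1 : n i ≤ M := Finset.single_le_sum (f := n) (fun _ _ => Nat.zero_le _)
      (Finset.mem_range.2 hi)
    have h2 : 1 ≤ d - i := by omega
    calc n i ≤ N * 1 := by omega
      _ ≤ N * (d - i) := Nat.mul_le_mul_left _ h2
  set α : MG := MG.s ^ N with hα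
  have hα0 : α ≠ 0 := pow_ne_zero _ MG.s_ne_zero
  have hαs : star α = α := by rw [hα, star_pow, MG.star_s]
  have hαrep : α.rep =ᶠ[l0] fun z => z ^ N := by
    filter_upwards [MG.rep_pow MG.s N, MG.rep_s] with z h1 h2
    rw [hα, h1, h2]
  set P : MG[X] := C c⁻¹ * F.scaleRoots α with hP
  have hPc : ∀ i, P.coeff i = c⁻¹ * F.coeff i * α ^ (d - i) := by
    intro i
    rw [hP, coeff_C_mul, coeff_scaleRoots, mul_assoc]
  have hPd : P.natDegree = d := by
    rw [hP, natDegree_C_mul (inv_ne_zero hc0), natDegree_scaleRoots]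
  have hPm : P.Monic := by
    rw [Monic, leadingCoeff, hPd, hPc, Nat.sub_self, pow_zero, mul_one, ← hcdef, inv_mul_cancel₀ hc0]
  have hPrep : ∀ i, (P.coeff i).rep =ᶠ[l0] fun z => (c⁻¹ * F.coeff i).rep z * (z ^ N) ^ (d - i) := by
    intro i
    rw [hPc]
    filter_upwards [MG.rep_mul (c⁻¹ * F.coeff i) (α ^ (d - i)), MG.rep_pow α (d - i), hαrep]
      with z h1 h2 h3
    rw [h1, Pi.mul_apply, h2, h3]
  obtain ⟨W, hW, hPW⟩ := exists_mf hPm
    (fun i z => z ^ (N * (d - i) - n i) * (z ^ n i * (c⁻¹ * F.coeff i).rep z)) (by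
      intro i hi
      rw [hPd] at hi
      refine ⟨(analyticAt_id.pow _).mul (hn i), ?_⟩
      filter_upwards [hPrep i] with z h1
      rw [h1, ← mul_assoc, ← pow_add, Nat.sub_add_cancel (hnN i hi), ← pow_mul z N, mul_comm])
  rw [hPd] at hW
  -- positivity
  have hWpos : RealPos W := by
    have h1 : ∀ᶠ z in l0, ∀ i ∈ Finset.range (d + 1),
        (P.coeff i).rep z = (c.rep z)⁻¹ * (F.coeff i).rep z * (z ^ N) ^ (d - i) := by
      refine (Finset.eventually_all _).2 fun i _ => ?_
      filter_upwards [hPrep i, MG.rep_mul c⁻¹ (F.coeff i), MG.rep_inv c] with z e1 e2 e3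
      rw [e1, e2, Pi.mul_apply, e3]
    filter_upwards [hF, hcpos, tendsto_ofReal_r0.eventually h1,
      tendsto_ofReal_r0.eventually hPW, tendsto_ofReal_r0.eventually (rep_sp F),
      tendsto_ofReal_r0.eventually (MG.eventually_ne hc0), self_mem_nhdsWithin]
      with r e1 e2 e3 e4 e5 e6 e7 u
    have hdeg : (sp F r).natDegree = d := by
      refine le_antisymm (natDegree_sp_le F r) (le_natDegree_of_ne_zero ?_)
      rw [e5]
      exact e6
    have hWeq : W r = C (c.rep r)⁻¹ * (sp F r).scaleRoots ((r : ℂ) ^ N) := by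
      ext i
      rw [coeff_C_mul, coeff_scaleRoots, hdeg]
      by_cases hi : i < d + 1
      · rw [e4, e3 i (Finset.mem_range.2 hi), e5, mul_assoc]
      · rw [coeff_eq_zero_of_natDegree_lt (by rw [hW.deg]; omega),
          coeff_eq_zero_of_natDegree_lt (p := sp F r) (by omega), zero_mul, mul_zero]
    have hrN : (r ^ N : ℝ) ≠ 0 := pow_ne_zero _ e7
    have hu : (u : ℂ) = (r : ℂ) ^ N * (((u / r ^ N : ℝ)) : ℂ) := by
      have : ((r : ℂ) ^ N) = ((r ^ N : ℝ) : ℂ) := by push_cast; rfl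
      rw [this, ← Complex.ofReal_mul, mul_div_cancel₀ _ hrN]
    have hev : (W r).eval (u : ℂ) =
        ((((c.rep r).re)⁻¹ * (r ^ N) ^ d : ℝ) : ℂ) * (sp F r).eval (((u / r ^ N : ℝ)) : ℂ) := by
      have hcr : c.rep r = (((c.rep r).re : ℝ) : ℂ) := Complex.ext rfl (by simpa using e2.2)
      rw [hWeq, eval_mul, eval_C]
      conv_lhs => rw [hu]
      rw [scaleRoots_eval_mul, hdeg]
      conv_lhs => rw [hcr]
      push_cast
      ring
    rw [hev, Complex.re_ofReal_mul, Complex.im_ofReal_mul]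
    have h2 := e1 (u / r ^ N)
    have h3 : (0 : ℝ) ≤ (c.rep r).re⁻¹ * (r ^ N) ^ d := by
      have : (0 : ℝ) ≤ r ^ N := by
        rw [hN]
        exact (even_two_mul M).pow_nonneg r
      exact mul_nonneg (inv_nonneg.2 e2.1) (pow_nonneg this _)
    exact ⟨mul_nonneg h3 h2.1, by rw [h2.2, mul_zero]⟩
  obtain ⟨e, V, hV, hWV⟩ := family_norm d W hW hWpos
  obtain ⟨v, hv, -⟩ := exists_rep (W := V) (fun i => (hV.an i).meromorphicAt) (e := e)
    (Filter.Eventually.of_forall fun z => (hV.deg z).le)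
  have hPv : P = v * star v := by
    refine hPW.inj ((hv.mul hv.star).congr ?_)
    filter_upwards [hWV.filter_mono nhdsWithin_le_nhds] with z hz
    rw [hz]
    rfl
  -- back to `F`
  have hFP : F = C c * P.scaleRoots α⁻¹ := by
    ext i
    rw [coeff_C_mul, coeff_scaleRoots, hPd, hPc]
    by_cases hi : i ≤ d
    · have h1 : α ^ (d - i) ≠ 0 := pow_ne_zero _ hα0
      rw [inv_pow]
      field_simp
    · rw [coeff_eq_zero_of_natDegree_lt (by omega)]
      simp
  have hαi : star α⁻¹ = α⁻¹ := by rw [star_inv₀, hαs]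
  refine ⟨C γ * v.scaleRoots α⁻¹, ?_⟩
  rw [star_mul, star_scaleRoots _ hαi, star_C, hγs]
  conv_lhs => rw [hFP, hPv, mul_scaleRoots_of_noZeroDivisors, ← hγ, C_mul]
  ring

theorem gPos_add {F G : MG[X]} (hF : GPos F) (hG : GPos G) : GPos (F + G) := by
  refine gPos_of_rep ((rep_sp F).add (rep_sp G)) ?_
  filter_upwards [hF, hG] with r h1 h2 u
  rw [eval_add, Complex.add_re, Complex.add_im]
  exact ⟨add_nonneg (h1 u).1 (h2 u).1, by rw [(h1 u).2, (h2 u).2, add_zero]⟩

theorem gPos_norm (w : MG[X]) : GPos (w * star w) := by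
  refine gPos_of_rep ((rep_sp w).mul (rep_sp w).star) ?_
  refine Filter.Eventually.of_forall fun r u => ?_
  have e1 : star ((r : ℝ) : ℂ) = r := Complex.conj_ofReal r
  have e2 : star ((u : ℝ) : ℂ) = u := Complex.conj_ofReal u
  have e3 : ((sp w (star (r : ℂ))).map (starRingEnd ℂ)).eval (u : ℂ) =
      star ((sp w r).eval (u : ℂ)) := by
    have := eval_map_star (sp w r) (u : ℂ)
    rw [e2] at this
    rw [e1]
    exact this
  have e4 : (sp w r).eval (u : ℂ) * star ((sp w r).eval (u : ℂ)) =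
      ((Complex.normSq ((sp w r).eval (u : ℂ)) : ℝ) : ℂ) := Complex.mul_conj _
  rw [eval_mul, e3, e4, Complex.ofReal_re, Complex.ofReal_im]
  exact ⟨Complex.normSq_nonneg _, rfl⟩

theorem MG.sumNorm : SumNorm MG[X] := fun a b =>
  exists_norm (gPos_add (gPos_norm a) (gPos_norm b))

end Vale.Agent.P256.H230
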