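import Vale.Agent.P256.H230.FRPoly

/-!
# P256, helper230: from a Hermitian form commuting with `C` to a linear Hermitian pencil
-/

open Matrix Polynomial

namespace Vale.Agent.P256.H230

section pencil

variable {K : Type*} [Field K] [StarRing K]

/-- The norm form is anisotropic modulo a prime `q ~ q^*`. -/
theorem aniso_mod (hA : Aniso K) (hS : SumNorm K[X]) {q : K[X]} (hq : Prime q)
    (hqs : Associated q (star q)) {ι : Type*} [Fintype ι] (a : ι → K[X])
    (h : q ∣ ∑ i, a i * star (a i)) (i : ι) : q ∣ a i := by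
  have hdvd : ∀ x : K[X], q ∣ x → q ∣ star x := fun x hx => hqs.dvd.trans (star_dvd hx)
  -- reduce modulo `q`
  have hqd : 0 < q.degree := degree_pos_of_irreducible hq.irreducible
  have hqn : 0 < q.natDegree := natDegree_pos_iff_degree_pos.2 hqd
  set r : ι → K[X] := fun i => a i % q with hr
  have hra : ∀ i, q ∣ a i - r i := by
    intro i
    refine ⟨a i / q, ?_⟩
    have := EuclideanDomain.div_add_mod (a i) q
    simp only [hr]
    linear_combination -this
  have hsum : q ∣ ∑ i, r i * star (r i) := by
    have h1 : q ∣ (∑ i, a i * star (a i)) - ∑ i, r i * star (r i) := by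
      rw [← Finset.sum_sub_distrib]
      refine Finset.dvd_sum fun i _ => ?_
      have e : a i * star (a i) - r i * star (r i) =
          (a i - r i) * star (a i) + star (a i - r i) * r i := by
        rw [star_sub]
        ring
      rw [e]
      exact dvd_add ((hra i).mul_right _) ((hdvd _ (hra i)).mul_right _)
    exact (dvd_sub_right h).1 h1
  obtain ⟨w, hw⟩ := hS.sum Finset.univ r
  rw [hw] at hsum
  have hqw : q ∣ w := by
    rcases hq.dvd_or_dvd hsum with h1 | h1
    · exact h1
    · have := hdvd _ h1
      rwa [star_star] at this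
  have hw0 : w = 0 := by
    by_contra hne
    have h1 : q.natDegree ≤ w.natDegree := natDegree_le_of_dvd hqw hne
    have h2 : (∑ i, r i * star (r i)).natDegree ≤ 2 * (q.natDegree - 1) := by
      refine natDegree_sum_le_of_forall_le _ _ fun i _ => ?_
      rw [natDegree_norm]
      have h3 : (r i).natDegree < q.natDegree := by
        by_cases h4 : r i = 0
        · rw [h4, natDegree_zero]
          exact hqn
        · exact natDegree_lt_natDegree h4 (EuclideanDomain.mod_lt (a i) hq.ne_zero)
      omega
    rw [hw, natDegree_norm] at h2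
    omega
  rw [hw0, zero_mul] at hw
  have h5 := hA.poly.of_fintype r hw i
  have h6 := hra i
  rwa [h5, sub_zero] at h6

/-- a consistent choice of one prime in every pair `π, π^*` -/
theorem exists_choice (K : Type*) [Field K] [StarRing K] :
    ∃ S : K[X] → Prop, (∀ π, Prime π → S π ∨ S (star π)) ∧
      ∀ q d : K[X], (∀ q, Prime q → q ∣ d → ∃ π, S π ∧ Associated q π) → Prime q → q ∣ d →
        q ∣ star d → Associated q (star q) := by
  classical
  set r : Associates K[X] → Associates K[X] → Prop := WellOrderingRel with hr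
  refine ⟨fun π => ¬ r (Associates.mk (star π)) (Associates.mk π), ?_, ?_⟩
  · intro π _
    by_contra hcon
    push Not at hcon
    obtain ⟨h1, h2⟩ := hcon
    rw [star_star] at h2
    exact asymm_of r h1 h2
  · intro q d hd hq hqd hqs
    obtain ⟨π, hπ, hqπ⟩ := hd q hq hqd
    have h1 : star q ∣ d := by
      have := star_dvd hqs
      rwa [star_star] at this
    obtain ⟨π', hπ', hqπ'⟩ := hd (star q) (star_prime hq) h1
    have hst : ∀ {a b : K[X]}, Associated a b → Associated (star a) (star b) := by
      intro a b hab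
      exact associated_of_dvd_dvd (star_dvd hab.dvd) (star_dvd hab.symm.dvd)
    have e1 : Associates.mk q = Associates.mk π := Associates.mk_eq_mk_iff_associated.2 hqπ
    have e2 : Associates.mk (star q) = Associates.mk (star π) :=
      Associates.mk_eq_mk_iff_associated.2 (hst hqπ)
    have e3 : Associates.mk (star q) = Associates.mk π' := Associates.mk_eq_mk_iff_associated.2 hqπ'
    have e4 : Associates.mk q = Associates.mk (star π') := by
      have := hst hqπ'
      rw [star_star] at this
      exact Associates.mk_eq_mk_iff_associated.2 this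
    rw [← e1, ← e2] at hπ
    rw [← e3, ← e4] at hπ'
    rcases trichotomous_of r (Associates.mk (star q)) (Associates.mk q) with h | h | h
    · exact absurd h hπ
    · exact (Associates.mk_eq_mk_iff_associated.1 h).symm
    · exact absurd h hπ'

variable {n : Type*} [Fintype n] [DecidableEq n]

omit [DecidableEq n] in
theorem sum_norm_eq_trace {R : Type*} [CommRing R] [StarRing R] (N : Matrix n n R) :
    ∑ ij : n × n, N ij.1 ij.2 * star (N ij.1 ij.2) = (N * Nᴴ).trace := by
  rw [Fintype.sum_prod_type, trace]
  rfl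

theorem charpoly_eq_of_conj {R : Type*} [CommRing R] [IsDomain R] {M Cm Q : Matrix n n R}
    (h : M * Q = Q * Cm) (hQ : Q.det ≠ 0) : M.charpoly = Cm.charpoly := by
  set φ : Matrix n n R →+* Matrix n n R[X] := (C : R →+* R[X]).mapMatrix with hφ
  have h1 : M.charmatrix * φ Q = φ Q * Cm.charmatrix := by
    have e1 : M.charmatrix = Matrix.scalar n (X : R[X]) - φ M := rfl
    have e2 : Cm.charmatrix = Matrix.scalar n (X : R[X]) - φ Cm := rfl
    rw [e1, e2, Matrix.sub_mul, Matrix.mul_sub, ← map_mul, h, map_mul,
      (Matrix.scalar_commute (X : R[X]) (fun r' => mul_comm _ _) (φ Q)).eq]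
  have h2 := congrArg Matrix.det h1
  rw [det_mul, det_mul, mul_comm] at h2
  have h3 : (φ Q).det ≠ 0 := by
    rw [hφ, ← RingHom.map_det]
    exact C_ne_zero.2 hQ
  exact mul_left_cancel₀ h3 h2

theorem exists_pencil (hA : Aniso K) (hS : SumNorm K[X]) {Cm H : Matrix n n K[X]} (hH : Hᴴ = H)
    (hN : NormPsd H) (hdet : H.det ≠ 0) (hHC : H * Cm = Cmᴴ * H)
    (htr : (Cm * Cm).trace.natDegree ≤ 2) :
    ∃ A G : Matrix n n K, Aᴴ = A ∧ Gᴴ = G ∧
      (A.map C + (X : K[X]) • G.map C).charpoly = Cm.charpoly := by
  classical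
  obtain ⟨S, hS1, hS2⟩ := exists_choice K
  obtain ⟨Q, hQ, hδ0, hSQ⟩ := fejer_riesz hA S hS1 hH hN hdet
  set δ := Q.det with hδ
  have hsδ0 : star δ ≠ 0 := star_ne_zero.2 hδ0
  set N := Q * Cm * Q.adjugate with hNdef
  have hQs : Qᴴ.det = star δ := det_conjTranspose Q
  -- first identity
  have id1 : star δ • N = δ • Nᴴ := by
    have e1 : Qᴴ * Q * Cm = Cmᴴ * (Qᴴ * Q) := by rw [← hQ, hHC]
    have e2 : Qᴴ.adjugate * (Qᴴ * Q * Cm) * Q.adjugate = star δ • N := by
      have : Qᴴ.adjugate * (Qᴴ * Q * Cm) * Q.adjugate =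
          (Qᴴ.adjugate * Qᴴ) * (Q * Cm * Q.adjugate) := by simp only [Matrix.mul_assoc]
      rw [this, adjugate_mul, hQs, smul_mul, Matrix.one_mul]
    have e3 : Qᴴ.adjugate * (Cmᴴ * (Qᴴ * Q)) * Q.adjugate = δ • Nᴴ := by
      have h1 : Qᴴ.adjugate * (Cmᴴ * (Qᴴ * Q)) * Q.adjugate =
          (Qᴴ.adjugate * Cmᴴ * Qᴴ) * (Q * Q.adjugate) := by simp only [Matrix.mul_assoc]
      have h2 : Nᴴ = Qᴴ.adjugate * Cmᴴ * Qᴴ := by
        rw [hNdef, conjTranspose_mul, conjTranspose_mul, adjugate_conjTranspose, Matrix.mul_assoc]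
      rw [h1, mul_adjugate, h2, Matrix.mul_smul, Matrix.mul_one]
    rw [← e2, ← e3, e1]
  have htrN : (N * N).trace = δ * δ * (Cm * Cm).trace := by
    have h1 : N * N = δ • (Q * (Cm * Cm) * Q.adjugate) := by
      have : N * N = Q * Cm * (Q.adjugate * Q) * Cm * Q.adjugate := by
        rw [hNdef]; simp only [Matrix.mul_assoc]
      rw [this, adjugate_mul, Matrix.mul_smul, Matrix.mul_one, smul_mul, smul_mul, ← hδ]
      simp only [Matrix.mul_assoc]
    rw [h1, trace_smul, Matrix.trace_mul_comm, ← Matrix.mul_assoc, adjugate_mul, smul_mul,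
      Matrix.one_mul, trace_smul, smul_eq_mul, smul_eq_mul, mul_assoc]
  have id2 : (N * Nᴴ).trace = δ * star δ * (Cm * Cm).trace := by
    have h1 : δ * (N * Nᴴ).trace = δ * (δ * star δ * (Cm * Cm).trace) := by
      rw [← smul_eq_mul, ← trace_smul, ← Matrix.mul_smul, ← id1, Matrix.mul_smul, trace_smul, htrN,
        smul_eq_mul]
      ring
    exact mul_left_cancel₀ hδ0 h1
  -- `δ` divides `N`
  have hdvd : ∀ a : K[X], a ∣ δ → ∀ i j, a ∣ N i j := by
    intro a
    induction a using UniqueFactorizationMonoid.induction_on_coprime with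
    | h0 =>
      intro h
      exact absurd (zero_dvd_iff.1 h) hδ0
    | h1 hu => exact fun _ i j => hu.dvd
    | @hpr q k hq =>
      by_cases hself : Associated q (star q)
      · induction k with
        | zero => exact fun _ i j => by simp
        | succ k ih =>
          intro hk
          have h1 := ih ((pow_dvd_pow q (Nat.le_succ k)).trans hk)
          choose f hf using h1
          obtain ⟨δ', hδ'⟩ := hk
          have h2 : (N * Nᴴ).trace = (q * star q) ^ k * ∑ ij : n × n, f ij.1 ij.2 * star (f ij.1 ij.2) := by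
            rw [← sum_norm_eq_trace, Finset.mul_sum]
            refine Finset.sum_congr rfl fun ij _ => ?_
            rw [hf, star_mul, star_pow, mul_pow]
            ring
          have h3 : (q * star q) ^ k * ∑ ij : n × n, f ij.1 ij.2 * star (f ij.1 ij.2) =
              (q * star q) ^ k * (q * (star q * δ' * star δ' * (Cm * Cm).trace)) := by
            rw [← h2, id2, hδ', star_mul, star_pow]
            ring
          have hqq : (q * star q) ^ k ≠ 0 :=
            pow_ne_zero _ (mul_ne_zero hq.ne_zero (star_ne_zero.2 hq.ne_zero))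
          have h4 := mul_left_cancel₀ hqq h3
          intro i j
          have h5 := aniso_mod hA hS hq hself (fun ij : n × n => f ij.1 ij.2)
            ⟨_, h4⟩ (i, j)
          rw [hf, pow_succ]
          exact mul_dvd_mul_left _ h5
      · intro hk i j
        rcases Nat.eq_zero_or_pos k with hk0 | hk0
        · rw [hk0, pow_zero]
          exact one_dvd _
        have h1 : ¬ q ∣ star δ := fun h2 =>
          hself (hS2 q δ hSQ hq ((dvd_pow_self q hk0.ne').trans hk) h2)
        have h2 : q ^ k ∣ star δ * N i j := by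
          have h3 := congrFun (congrFun id1 i) j
          simp only [Matrix.smul_apply, smul_eq_mul] at h3
          rw [h3]
          exact hk.mul_right _
        exact hq.pow_dvd_of_dvd_mul_left k h1 h2
    | @hcp x y hxy hx hy =>
      intro hxyd i j
      exact (hxy.mul_dvd (hx ((dvd_mul_right x y).trans hxyd) i j)
        (hy ((dvd_mul_left y x).trans hxyd) i j))
  choose M0 hM0 using hdvd δ dvd_rfl
  set M : Matrix n n K[X] := Matrix.of M0 with hM
  have hNM : N = δ • M := by
    ext1 i j
    rw [Matrix.smul_apply, smul_eq_mul, hM, of_apply]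
    exact hM0 i j
  have hMH : Mᴴ = M := by
    have h1 : (star δ * δ) • M = (star δ * δ) • Mᴴ := by
      rw [← smul_smul, ← hNM, id1, hNM, conjTranspose_smul, smul_smul, mul_comm δ]
    ext1 i j
    have h2 := congrFun (congrFun h1 i) j
    simp only [Matrix.smul_apply, smul_eq_mul] at h2
    exact (mul_left_cancel₀ (mul_ne_zero hsδ0 hδ0) h2).symm
  have hMQ : M * Q = Q * Cm := by
    have h1 : δ • (M * Q) = δ • (Q * Cm) := by
      rw [← smul_mul, ← hNM, hNdef, Matrix.mul_assoc, adjugate_mul, Matrix.mul_smul, Matrix.mul_one]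
    ext1 i j
    have h2 := congrFun (congrFun h1 i) j
    simp only [Matrix.smul_apply, smul_eq_mul] at h2
    exact mul_left_cancel₀ hδ0 h2
  have htrM : (M * Mᴴ).trace = (Cm * Cm).trace := by
    have h1 : δ * star δ * (M * Mᴴ).trace = δ * star δ * (Cm * Cm).trace := by
      rw [← id2, hNM, conjTranspose_smul, smul_mul, Matrix.mul_smul, trace_smul, trace_smul,
        smul_eq_mul, smul_eq_mul, mul_assoc]
    exact mul_left_cancel₀ (mul_ne_zero hδ0 hsδ0) h1
  -- degree at most one
  have hdeg : ∀ i j, (M i j).natDegree ≤ 1 := by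
    intro i j
    refine aniso_deg hA (fun ij : n × n => M ij.1 ij.2) 1 (fun k hk => ?_) (i, j)
    rw [sum_norm_eq_trace, htrM]
    exact coeff_eq_zero_of_natDegree_lt (lt_of_le_of_lt htr (by omega))
  set A : Matrix n n K := M.map fun P => P.coeff 0 with hAdef
  set G : Matrix n n K := M.map fun P => P.coeff 1 with hGdef
  have hMAG : M = A.map C + (X : K[X]) • G.map C := by
    ext1 i j
    rw [Matrix.add_apply, Matrix.smul_apply, hAdef, hGdef, Matrix.map_apply, Matrix.map_apply,
      Matrix.map_apply, Matrix.map_apply, smul_eq_mul]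
    conv_lhs => rw [eq_X_add_C_of_natDegree_le_one (hdeg i j)]
    ring
  refine ⟨A, G, ?_, ?_, ?_⟩
  · ext i j
    rw [conjTranspose_apply, hAdef, Matrix.map_apply, Matrix.map_apply, ← coeff_star,
      ← conjTranspose_apply, hMH]
  · ext i j
    rw [conjTranspose_apply, hGdef, Matrix.map_apply, Matrix.map_apply, ← coeff_star,
      ← conjTranspose_apply, hMH]
  · rw [← hMAG]
    exact charpoly_eq_of_conj hMQ hδ0

end pencil

end Vale.Agent.P256.H230
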