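import Mathlib

/-!
# P256, helper230: etale coordinates for real algebraic analytic functions (Tougeron)

`g` analytic at `0`, algebraic over `R[s]`: `g = T + s ^ N h` with `h` analytic, a simple root.
-/

open Filter Topology Polynomial

namespace Vale.Agent.P256.H230

/-- evaluation of a bivariate polynomial -/
noncomputable def ev2 (P : ℝ[X][X]) (s y : ℝ) : ℝ := (P.map (evalRingHom s)).eval y

/-- germs of real analytic functions -/
noncomputable def anRing : Subring (Germ (𝓝 (0 : ℝ)) ℝ) where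
  carrier := {φ | ∃ f : ℝ → ℝ, AnalyticAt ℝ f 0 ∧ (f : Germ (𝓝 (0 : ℝ)) ℝ) = φ}
  mul_mem' := by
    rintro _ _ ⟨f, hf, rfl⟩ ⟨g, hg, rfl⟩
    exact ⟨f * g, hf.mul hg, rfl⟩
  one_mem' := ⟨1, analyticAt_const, rfl⟩
  add_mem' := by
    rintro _ _ ⟨f, hf, rfl⟩ ⟨g, hg, rfl⟩
    exact ⟨f + g, hf.add hg, rfl⟩
  zero_mem' := ⟨0, analyticAt_const, rfl⟩
  neg_mem' := by
    rintro _ ⟨f, hf, rfl⟩
    exact ⟨-f, hf.neg, rfl⟩

/-- the germ of an analytic function -/
noncomputable def amk (f : ℝ → ℝ) (hf : AnalyticAt ℝ f 0) : anRing :=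
  ⟨(f : Germ (𝓝 (0 : ℝ)) ℝ), f, hf, rfl⟩

theorem amk_eq {f g : ℝ → ℝ} (hf : AnalyticAt ℝ f 0) (hg : AnalyticAt ℝ g 0) :
    amk f hf = amk g hg ↔ f =ᶠ[𝓝 0] g := by
  rw [← Germ.coe_eq]
  exact Subtype.ext_iff

theorem exists_amk (φ : anRing) : ∃ f, ∃ hf : AnalyticAt ℝ f 0, amk f hf = φ := by
  obtain ⟨f, hf, h⟩ := φ.2
  exact ⟨f, hf, Subtype.ext h⟩

theorem analyticAt_poly (p : ℝ[X]) (a : ℝ) : AnalyticAt ℝ (fun s => p.eval s) a :=
  AnalyticOnNhd.eval_polynomial p a (Set.mem_univ _)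

/-- polynomials as germs -/
noncomputable def pol : ℝ[X] →+* anRing where
  toFun p := amk (fun s => p.eval s) (analyticAt_poly p 0)
  map_one' := Subtype.ext (congrArg Germ.ofFun (funext fun _ => eval_one))
  map_mul' _ _ := Subtype.ext (congrArg Germ.ofFun (funext fun _ => eval_mul))
  map_zero' := Subtype.ext (congrArg Germ.ofFun (funext fun _ => eval_zero))
  map_add' _ _ := Subtype.ext (congrArg Germ.ofFun (funext fun _ => eval_add))

theorem analyticAt_ev2 (P : ℝ[X][X]) {g : ℝ → ℝ} (hg : AnalyticAt ℝ g 0) :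
    AnalyticAt ℝ (fun s => ev2 P s (g s)) 0 := by
  have h1 : (fun s => ev2 P s (g s)) =
      fun s => ∑ i ∈ Finset.range (P.natDegree + 1), (P.coeff i).eval s * g s ^ i := by
    funext s
    rw [ev2, eval_eq_sum_range' (Nat.lt_succ_of_le natDegree_map_le)]
    refine Finset.sum_congr rfl fun i _ => ?_
    rw [coeff_map, coe_evalRingHom]
  rw [h1]
  exact Finset.analyticAt_fun_sum _ fun i _ => (analyticAt_poly _ 0).mul (hg.pow i)

/-- evaluation in the ring of germs -/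
theorem eval_amk (P : ℝ[X][X]) {g : ℝ → ℝ} (hg : AnalyticAt ℝ g 0) :
    (P.map pol).eval (amk g hg) = amk (fun s => ev2 P s (g s)) (analyticAt_ev2 P hg) := by
  induction P using Polynomial.induction_on' with
  | add p q hp hq =>
    rw [Polynomial.map_add, eval_add, hp, hq]
    refine Subtype.ext (congrArg Germ.ofFun (funext fun s => ?_))
    simp only [ev2, Polynomial.map_add, eval_add]
  | monomial n a =>
    rw [map_monomial, eval_monomial]
    refine Subtype.ext (congrArg Germ.ofFun (funext fun s => ?_))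
    simp only [ev2, map_monomial, eval_monomial, coe_evalRingHom]
    rfl

theorem amk_zero (h : AnalyticAt ℝ (fun _ : ℝ => (0 : ℝ)) 0) : amk (fun _ => 0) h = 0 := rfl

theorem pol_X : pol X = amk (fun s => s) analyticAt_id := by
  refine Subtype.ext (congrArg Germ.ofFun (funext fun s => ?_))
  exact eval_X

/-- divisibility of a polynomial by `X ^ m` from the germ -/
theorem X_pow_dvd {m : ℕ} {p : ℝ[X]} {k : anRing} (h : pol p = pol X ^ m * k) : X ^ m ∣ p := by
  obtain ⟨f, hf, rfl⟩ := exists_amk k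
  have h1 : ∀ᶠ s in 𝓝 (0 : ℝ), p.eval s = s ^ m * f s := by
    have h2 : amk (fun s => p.eval s) (analyticAt_poly p 0) =
        amk (fun s => s ^ m * f s) ((analyticAt_id.pow m).mul hf) := by
      have h3 : pol X ^ m * amk f hf = amk (fun s => s ^ m * f s) ((analyticAt_id.pow m).mul hf) := by
        rw [pol_X]
        rfl
      rw [← h3, ← h]
      rfl
    exact (amk_eq _ _).1 h2
  clear h
  induction m generalizing f with
  | zero => simp
  | succ m ih =>
    obtain ⟨q, rfl⟩ := ih (fun s => s * f s) (analyticAt_id.mul hf) (by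
      filter_upwards [h1] with s hs
      rw [hs]
      ring)
    have h2 : ∀ᶠ s in 𝓝[≠] (0 : ℝ), q.eval s = s * f s := by
      filter_upwards [h1.filter_mono nhdsWithin_le_nhds, self_mem_nhdsWithin] with s hs hs0
      rw [eval_mul, eval_pow, eval_X] at hs
      have h3 : s ^ m ≠ 0 := pow_ne_zero _ hs0
      exact mul_left_cancel₀ h3 (by rw [hs]; ring)
    have h4 : q.eval 0 = 0 := by
      have t1 : Tendsto (fun s => q.eval s) (𝓝[≠] 0) (𝓝 (q.eval 0)) :=
        q.continuous.continuousAt.tendsto.mono_left nhdsWithin_le_nhds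
      have t2 : Tendsto (fun s : ℝ => s * f s) (𝓝[≠] 0) (𝓝 (0 * f 0)) :=
        ((continuousAt_id.mul hf.continuousAt).tendsto).mono_left nhdsWithin_le_nhds
      rw [zero_mul] at t2
      exact tendsto_nhds_unique_of_eventuallyEq t1 t2 h2
    have h5 : X ∣ q := X_dvd_iff.2 (by rw [coeff_zero_eq_eval_zero, h4])
    rw [pow_succ]
    exact mul_dvd_mul_left _ h5

theorem exists_taylor {g : ℝ → ℝ} (hg : AnalyticAt ℝ g 0) (N : ℕ) :
    ∃ (T : ℝ[X]) (h : ℝ → ℝ), AnalyticAt ℝ h 0 ∧ ∀ s, g s = T.eval s + s ^ N * h s := by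
  induction N with
  | zero => exact ⟨0, g, hg, fun s => by simp⟩
  | succ N ih =>
    obtain ⟨T, h, hh, e⟩ := ih
    obtain ⟨p, hp⟩ := hh
    refine ⟨T + C (h 0) * X ^ N, dslope h 0, ⟨_, hp.has_fpower_series_dslope_fslope⟩, fun s => ?_⟩
    have h1 := sub_smul_dslope h 0 s
    rw [sub_zero, smul_eq_mul] at h1
    rw [e, eval_add, eval_mul, eval_C, eval_pow, eval_X, pow_succ, mul_assoc, h1]
    ring

theorem ev2_mul (P Q : ℝ[X][X]) (s y : ℝ) : ev2 (P * Q) s y = ev2 P s y * ev2 Q s y := by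
  rw [ev2, Polynomial.map_mul, eval_mul]
  rfl

theorem ev2_C (p : ℝ[X]) (s y : ℝ) : ev2 (C p) s y = p.eval s := by
  rw [ev2, map_C, eval_C, coe_evalRingHom]

/-- **Etale coordinates.** -/
theorem tougeron {g : ℝ → ℝ} (hg : AnalyticAt ℝ g 0)
    (halg : ∃ P : ℝ[X][X], P ≠ 0 ∧ ∀ᶠ s in 𝓝 (0 : ℝ), ev2 P s (g s) = 0) :
    ∃ (N : ℕ) (T : ℝ[X]) (hh : ℝ → ℝ) (Q : ℝ[X][X]), AnalyticAt ℝ hh 0 ∧
      (∀ s, g s = T.eval s + s ^ N * hh s) ∧ (∀ᶠ s in 𝓝 (0 : ℝ), ev2 Q s (hh s) = 0) ∧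
      ev2 (derivative Q) 0 (hh 0) ≠ 0 := by
  classical
  -- minimal equation
  have hex : ∃ n : ℕ, ∃ P : ℝ[X][X], P ≠ 0 ∧ P.natDegree = n ∧
      ∀ᶠ s in 𝓝 (0 : ℝ), ev2 P s (g s) = 0 := by
    obtain ⟨P, hP, h⟩ := halg
    exact ⟨_, P, hP, rfl, h⟩
  obtain ⟨P, hP0, hPn, hP⟩ := Nat.find_spec hex
  have hmin : ∀ R : ℝ[X][X], R ≠ 0 → R.natDegree < P.natDegree →
      ¬ ∀ᶠ s in 𝓝 (0 : ℝ), ev2 R s (g s) = 0 := by
    intro R hR hlt hcon
    rw [hPn] at hlt
    exact Nat.find_min hex hlt ⟨R, hR, rfl, hcon⟩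
  have hdeg : 0 < P.natDegree := by
    by_contra hcon
    have h1 := eq_C_of_natDegree_eq_zero (Nat.eq_zero_of_not_pos hcon)
    have h2 : ∀ᶠ s in 𝓝 (0 : ℝ), (P.coeff 0).eval s = 0 := by
      filter_upwards [hP] with s hs
      rw [h1, ev2_C] at hs
      simpa using hs
    obtain ⟨U, hU1, hU2⟩ := Filter.eventually_iff_exists_mem.1 h2
    have h4 : Set.Infinite U := infinite_of_mem_nhds 0 hU1
    have h5 := Polynomial.eq_zero_of_infinite_isRoot (P.coeff 0) (h4.mono fun z hz => hU2 z hz)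
    rw [h5, C_0] at h1
    exact hP0 h1
  have hP'0 : derivative P ≠ 0 := by
    intro h0
    have := derivative_eq_zero.1 h0
    omega
  have hne := hmin (derivative P) hP'0 (natDegree_derivative_lt hdeg.ne')
  obtain ⟨c, ψ, hψ, hψ0, hcψ⟩ :=
    (analyticAt_ev2 (derivative P) hg).exists_eventuallyEq_pow_smul_nonzero_iff.2 hne
  simp only [sub_zero, smul_eq_mul] at hcψ
  set N := c + 1 with hN
  obtain ⟨T, hh, hhan, hT⟩ := exists_taylor hg N
  -- germs
  set G := amk g hg with hG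
  set H := amk hh hhan with hH
  set x := pol X with hx
  set Ψ := amk ψ hψ with hΨ
  have hTG : pol T = G + (-(x ^ N * H)) := by
    have h1 : G = pol T + x ^ N * H := by
      refine Subtype.ext (congrArg Germ.ofFun (funext fun s => ?_))
      rw [hT]
      simp
    rw [h1]
    ring
  have hPG : (P.map pol).eval G = 0 := by
    rw [hG, eval_amk]
    exact (amk_eq _ analyticAt_const).2 hP
  have hdG : (derivative (P.map pol)).eval G = x ^ c * Ψ := by
    rw [derivative_map, hG, eval_amk]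
    have h3 : x ^ c * Ψ = amk (fun s => s ^ c * ψ s) ((analyticAt_id.pow c).mul hψ) := by
      rw [hx, pol_X]
      rfl
    rw [h3]
    exact (amk_eq _ _).2 hcψ
  have hpe : ∀ R : ℝ[X][X], (R.map pol).eval (pol T) = pol (R.eval T) := by
    intro R
    rw [eval_map]
    exact eval₂_at_apply pol T
  have hd0 : X ^ (N + c) ∣ P.eval T := by
    obtain ⟨k, hk⟩ := binomExpansion (P.map pol) G (-(x ^ N * H))
    refine X_pow_dvd (k := -(Ψ * H) + k * x * H ^ 2) ?_
    rw [← hpe, hTG, hk, hPG, hdG, hN]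
    ring
  obtain ⟨z, hz⟩ := evalSubFactor (derivative (P.map pol)) (pol T) G
  have hdT : pol ((derivative P).eval T) = x ^ c * (Ψ - z * x * H) := by
    rw [← hpe, ← derivative_map]
    have h1 := sub_eq_iff_eq_add.1 hz
    rw [h1, hdG]
    have h2 : pol T - G = -(x ^ N * H) := by rw [hTG]; ring
    rw [h2, hN]
    ring
  obtain ⟨q1, hq1⟩ := X_pow_dvd hdT
  have hq10 : q1.eval 0 ≠ 0 := by
    obtain ⟨zf, hzf, rfl⟩ := exists_amk z
    have h1 : amk (fun s => (X ^ c * q1).eval s) (analyticAt_poly _ 0) =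
        amk (fun s => s ^ c * (ψ s - zf s * s * hh s))
          ((analyticAt_id.pow c).mul (hψ.sub ((hzf.mul analyticAt_id).mul hhan))) := by
      rw [← hq1]
      have h3 : x ^ c * (Ψ - amk zf hzf * x * H) = amk (fun s => s ^ c * (ψ s - zf s * s * hh s))
          ((analyticAt_id.pow c).mul (hψ.sub ((hzf.mul analyticAt_id).mul hhan))) := by
        rw [hx, pol_X]
        rfl
      rw [← h3, ← hdT]
      rfl
    have h2 := (amk_eq _ _).1 h1
    have h3 : ∀ᶠ s in 𝓝[≠] (0 : ℝ), q1.eval s = ψ s - zf s * s * hh s := by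
      filter_upwards [h2.filter_mono nhdsWithin_le_nhds, self_mem_nhdsWithin] with s hs hs0
      rw [eval_mul, eval_pow, eval_X] at hs
      exact mul_left_cancel₀ (pow_ne_zero _ hs0) hs
    have t1 : Tendsto (fun s => q1.eval s) (𝓝[≠] 0) (𝓝 (q1.eval 0)) :=
      q1.continuous.continuousAt.tendsto.mono_left nhdsWithin_le_nhds
    have t2 : Tendsto (fun s : ℝ => ψ s - zf s * s * hh s) (𝓝[≠] 0)
        (𝓝 (ψ 0 - zf 0 * 0 * hh 0)) :=
      ((hψ.continuousAt.sub ((hzf.continuousAt.mul continuousAt_id).mul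
        hhan.continuousAt)).tendsto).mono_left nhdsWithin_le_nhds
    rw [mul_zero, zero_mul, sub_zero] at t2
    rw [tendsto_nhds_unique_of_eventuallyEq t1 t2 h3]
    exact hψ0
  -- the rescaled polynomial
  set R0 : ℝ[X][X] := (taylor T P).comp (C (X ^ N) * X) with hR0
  have hR0c : ∀ k, R0.coeff k = (taylor T P).coeff k * (X ^ N) ^ k := fun k => by
    rw [hR0, comp_C_mul_X_coeff]
  have hpow : ∀ k, 2 ≤ k → N * k = (N + c) + (N * k - (N + c)) ∧ 0 < N * k - (N + c) := by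
    intro k hk
    have : N * 2 ≤ N * k := Nat.mul_le_mul_left _ hk
    omega
  have hpowX : ∀ k, 2 ≤ k →
      ((X : ℝ[X]) ^ N) ^ k = X ^ (N + c) * X ^ (N * k - (N + c)) := by
    intro k hk
    rw [← pow_mul, ← pow_add, ← (hpow k hk).1]
  have hdvd : C (X ^ (N + c)) ∣ R0 := by
    rw [C_dvd_iff_dvd_coeff]
    intro k
    rw [hR0c]
    rcases Nat.lt_or_ge k 2 with hk | hk
    · interval_cases k
      · rw [taylor_coeff_zero, pow_zero, mul_one]
        exact hd0
      · rw [taylor_coeff_one, pow_one, hq1]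
        exact ⟨q1, by rw [pow_add]; ring⟩
    · refine Dvd.dvd.mul_left ?_ _
      rw [hpowX k hk]
      exact dvd_mul_right _ _
  obtain ⟨Q, hQ⟩ := hdvd
  have hXne : (X ^ (N + c) : ℝ[X]) ≠ 0 := pow_ne_zero _ X_ne_zero
  have hQc : ∀ k, X ^ (N + c) * Q.coeff k = (taylor T P).coeff k * (X ^ N) ^ k := by
    intro k
    rw [← hR0c, hQ, coeff_C_mul]
  have hQ1 : Q.coeff 1 = q1 := by
    have h1 := hQc 1
    rw [taylor_coeff_one, hq1] at h1
    exact mul_left_cancel₀ hXne (by rw [h1]; ring)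
  have hQk : ∀ k, 2 ≤ k → (Q.coeff k).eval 0 = 0 := by
    intro k hk
    have h1 := hQc k
    rw [hpowX k hk] at h1
    have h2 : Q.coeff k = (taylor T P).coeff k * X ^ (N * k - (N + c)) :=
      mul_left_cancel₀ hXne (by rw [h1]; ring)
    rw [h2, eval_mul, eval_pow, eval_X, zero_pow (hpow k hk).2.ne', mul_zero]
  have hR0ev : ∀ s y, ev2 R0 s y = ev2 P s (T.eval s + s ^ N * y) := by
    intro s y
    rw [hR0, taylor_apply, ev2, map_comp, map_comp, eval_comp, eval_comp, ev2]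
    congr 1
    simp only [Polynomial.map_mul, Polynomial.map_add, map_X, map_C, eval_add, eval_mul, eval_X,
      eval_C, coe_evalRingHom, eval_pow]
    ring
  have hQ0 : ∀ᶠ s in 𝓝[≠] (0 : ℝ), ev2 Q s (hh s) = 0 := by
    filter_upwards [hP.filter_mono nhdsWithin_le_nhds, self_mem_nhdsWithin] with s hs hs0
    rw [hT s, ← hR0ev, hQ, ev2_mul, ev2_C, eval_pow, eval_X] at hs
    exact (mul_eq_zero.1 hs).resolve_left (pow_ne_zero _ hs0)
  refine ⟨N, T, hh, Q, hhan, hT, ?_, ?_⟩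
  · exact ((analyticAt_ev2 Q hhan).frequently_zero_iff_eventually_zero).1 hQ0.frequently
  · have h1 : (derivative Q).map (evalRingHom 0) = C (q1.eval 0) := by
      ext k
      rw [coeff_map, coeff_derivative, coeff_C]
      rcases Nat.eq_zero_or_pos k with hk | hk
      · rw [if_pos hk, hk, zero_add, hQ1]
        simp
      · rw [if_neg hk.ne', map_mul, coe_evalRingHom, hQk (k + 1) (by omega), zero_mul]
    rw [ev2, h1, eval_C]
    exact hq10

end Vale.Agent.P256.H230
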